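import Mathlib

/-!
Packing/covering partitions and the intersection property for (infinite) matroids.
-/

open Set Matroid

namespace Vale.Agent.H6.InfMat

/-- The pair `(M, N)` of matroids on a common ground set satisfies intersection: some set
`J₁ ∪ J₂`, with `J₁` and `J₂` disjoint, is independent in both matroids, and the `M`-closure of
`J₁` and the `N`-closure of `J₂` cover the ground set. -/
def SatisfiesIntersection {α : Type} (M N : Matroid α) : Prop :=
  ∃ J₁ J₂ : Set α, Disjoint J₁ J₂ ∧ M.Indep (J₁ ∪ J₂) ∧ N.Indep (J₁ ∪ J₂) ∧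
    M.closure J₁ ∪ N.closure J₂ = M.E

/-- The family `M` of matroids with common ground set `E` has a packing/covering partition:
`E` is the disjoint union of `P` and `C`, there are pairwise disjoint sets `S i ⊆ P`, with `S i`
spanning in the restriction of `M i` to `P`, and sets `I i ⊆ C`, with `I i` independent in the
contraction of `M i` onto `C` (the dual of the restriction of the dual to `C`), that
cover `C`. -/
def HasPackingCovering {α Θ : Type} (E : Set α) (M : Θ → Matroid α) : Prop :=
  ∃ P C : Set α, Disjoint P C ∧ P ∪ C = E ∧ ∃ S I : Θ → Set α,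
    (∀ i, S i ⊆ P) ∧ (∀ i, I i ⊆ C) ∧ (∀ i j, i ≠ j → Disjoint (S i) (S j)) ∧
    (∀ i, (M i ↾ P).closure (S i) = P) ∧ (∀ i, ((M i)✶ ↾ C)✶.Indep (I i)) ∧ (⋃ i, I i) = C

end Vale.Agent.H6.InfMat
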