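import Mathlib

/-!
Sets that agree outside a finite set and have the same number of elements in it.
-/

open Set

namespace Vale.Agent.H6.InfMat

variable {α : Type*}

/-- `A` and `B` agree outside a finite set `U` and have equally many elements in `U`. -/
def Fe (A B : Set α) : Prop :=
  ∃ U : Set α, U.Finite ∧ A \ U = B \ U ∧ (A ∩ U).ncard = (B ∩ U).ncard

/-- both differences are infinite -/
def Inc (A B : Set α) : Prop := (A \ B).Infinite ∧ (B \ A).Infinite

theorem Fe.refl (A : Set α) : Fe A A := ⟨∅, finite_empty, rfl, rfl⟩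

theorem Fe.symm {A B : Set α} (h : Fe A B) : Fe B A := by
  obtain ⟨U, hU, h1, h2⟩ := h
  exact ⟨U, hU, h1.symm, h2.symm⟩

theorem Inc.symm {A B : Set α} (h : Inc A B) : Inc B A := ⟨h.2, h.1⟩

theorem Fe.enlarge {A B U V : Set α} (hUV : U ⊆ V) (hV : V.Finite)
    (h1 : A \ U = B \ U) (h2 : (A ∩ U).ncard = (B ∩ U).ncard) :
    A \ V = B \ V ∧ (A ∩ V).ncard = (B ∩ V).ncard := by
  have hx : ∀ x, x ∉ U → (x ∈ A ↔ x ∈ B) := by
    intro x hx
    have := Set.ext_iff.1 h1 x
    simp only [mem_sdiff, hx, not_false_eq_true, and_true] at this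
    exact this
  refine ⟨?_, ?_⟩
  · ext x
    simp only [mem_sdiff]
    constructor
    · rintro ⟨h3, h4⟩
      exact ⟨(hx x (fun h => h4 (hUV h))).1 h3, h4⟩
    · rintro ⟨h3, h4⟩
      exact ⟨(hx x (fun h => h4 (hUV h))).2 h3, h4⟩
  · have e : ∀ C : Set α, (C ∩ V).ncard = (C ∩ U).ncard + (C ∩ (V \ U)).ncard := by
      intro C
      rw [← ncard_union_eq _ ((hV.subset hUV).subset inter_subset_right)
        ((hV.subset sdiff_subset).subset inter_subset_right)]
      · congr 1
        rw [← inter_union_distrib_left, union_sdiff_cancel hUV]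
      · rw [disjoint_left]
        rintro x ⟨_, h3⟩ ⟨_, h4⟩
        exact h4.2 h3
    rw [e A, e B, h2]
    congr 2
    ext x
    simp only [mem_inter_iff, mem_sdiff]
    constructor
    · rintro ⟨h3, h4, h5⟩
      exact ⟨(hx x h5).1 h3, h4, h5⟩
    · rintro ⟨h3, h4, h5⟩
      exact ⟨(hx x h5).2 h3, h4, h5⟩

theorem Fe.trans {A B C : Set α} (h : Fe A B) (h' : Fe B C) : Fe A C := by
  obtain ⟨U, hU, h1, h2⟩ := h
  obtain ⟨V, hV, h3, h4⟩ := h'
  obtain ⟨h5, h6⟩ := Fe.enlarge (subset_union_left (t := V)) (hU.union hV) h1 h2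
  obtain ⟨h7, h8⟩ := Fe.enlarge (subset_union_right (s := U)) (hU.union hV) h3 h4
  exact ⟨U ∪ V, hU.union hV, h5.trans h7, h6.trans h8⟩

theorem Fe.diff_finite {A B : Set α} (h : Fe A B) : (A \ B).Finite := by
  obtain ⟨U, hU, h1, h2⟩ := h
  refine hU.subset ?_
  rintro x ⟨h3, h4⟩
  by_contra h5
  have := Set.ext_iff.1 h1 x
  simp only [mem_sdiff, h5, not_false_eq_true, and_true] at this
  exact h4 (this.1 h3)

theorem Fe.eq_of_subset {A B : Set α} (h : Fe A B) (hAB : A ⊆ B) : A = B := by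
  obtain ⟨U, hU, h1, h2⟩ := h
  have h3 : A ∩ U = B ∩ U :=
    Set.eq_of_subset_of_ncard_le (inter_subset_inter_left U hAB) h2.ge
      (hU.subset inter_subset_right)
  rw [← inter_union_sdiff A U, ← inter_union_sdiff B U, h3, h1]

theorem Fe.exch {A B : Set α} (h : Fe A B) {x y : α} (hx : x ∈ B) (hy : y ∉ B) :
    Fe A (insert y (B \ {x})) := by
  refine h.trans ⟨{x, y}, by simp, ?_, ?_⟩
  · ext z
    simp only [mem_sdiff, mem_insert_iff, mem_singleton_iff, not_or]
    tauto
  · have e1 : B ∩ {x, y} = {x} := by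
      ext z
      simp only [mem_inter_iff, mem_insert_iff, mem_singleton_iff]
      constructor
      · rintro ⟨h1, h2 | h2⟩
        · exact h2
        · exact absurd (h2 ▸ h1) hy
      · rintro rfl
        exact ⟨hx, Or.inl rfl⟩
    have e2 : (insert y (B \ {x})) ∩ {x, y} = {y} := by
      ext z
      simp only [mem_inter_iff, mem_insert_iff, mem_singleton_iff, mem_sdiff]
      constructor
      · rintro ⟨h1 | h1, h2 | h2⟩
        · exact h1
        · exact h1
        · exact absurd h2 h1.2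
        · exact h2
      · rintro rfl
        exact ⟨Or.inl rfl, Or.inr rfl⟩
    rw [e1, e2, ncard_singleton, ncard_singleton]

/-- If `B \ I` is finite, at least as large as `I \ B`, and `X \ I` has enough elements,
then there is a set between `I` and `X` that is finitely equivalent to `B`. -/
theorem Fe.up {B I X : Set α} (h1 : (B \ I).Finite) (h2 : (I \ B).Finite)
    (hle : (I \ B).ncard ≤ (B \ I).ncard)
    (hA : ∃ A : Set α, A.Finite ∧ A ⊆ X \ I ∧ A.ncard = (B \ I).ncard - (I \ B).ncard)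
    (hIX : I ⊆ X) : ∃ S, I ⊆ S ∧ S ⊆ X ∧ Fe B S := by
  obtain ⟨A, hAf, hAX, hAc⟩ := hA
  refine ⟨I ∪ A, subset_union_left, union_subset hIX (hAX.trans sdiff_subset),
    (B \ I) ∪ (I \ B) ∪ A, (h1.union h2).union hAf, ?_, ?_⟩
  · ext z
    simp only [mem_sdiff, mem_union, not_or, not_and, not_not]
    tauto
  · have e1 : B ∩ ((B \ I) ∪ (I \ B) ∪ A) = B \ I := by
      ext z
      simp only [mem_inter_iff, mem_union, mem_sdiff]
      constructor
      · rintro ⟨h3, (h4 | h4) | h4⟩
        · exact h4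
        · exact absurd h3 h4.2
        · exact ⟨h3, (hAX h4).2⟩
      · intro h3
        exact ⟨h3.1, Or.inl (Or.inl h3)⟩
    have e2 : (I ∪ A) ∩ ((B \ I) ∪ (I \ B) ∪ A) = (I \ B) ∪ A := by
      ext z
      simp only [mem_inter_iff, mem_union, mem_sdiff]
      constructor
      · rintro ⟨h3 | h3, (h4 | h4) | h4⟩
        · exact absurd h3 h4.2
        · exact Or.inl h4
        · exact Or.inr h4
        · exact Or.inr h3
        · exact Or.inr h3
        · exact Or.inr h3
      · rintro (h3 | h3)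
        · exact ⟨Or.inl h3.1, Or.inl (Or.inr h3)⟩
        · exact ⟨Or.inr h3, Or.inr h3⟩
    rw [e1, e2, ncard_union_eq _ h2 hAf, hAc]
    · omega
    · rw [disjoint_left]
      rintro z h3 h4
      exact (hAX h4).2 h3.1

/-- If `X \ B` is finite, at least as large as `B \ X`, and `X \ I` has enough elements,
then there is a set between `I` and `X` that is finitely equivalent to `B`. -/
theorem Fe.down {B I X : Set α} (h1 : (X \ B).Finite) (h2 : (B \ X).Finite)
    (hle : (B \ X).ncard ≤ (X \ B).ncard)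
    (hA : ∃ A : Set α, A.Finite ∧ A ⊆ X \ I ∧ A.ncard = (X \ B).ncard - (B \ X).ncard)
    (hIX : I ⊆ X) : ∃ S, I ⊆ S ∧ S ⊆ X ∧ Fe B S := by
  obtain ⟨A, hAf, hAX, hAc⟩ := hA
  refine ⟨X \ A, fun z hz => ⟨hIX hz, fun h => (hAX h).2 hz⟩, sdiff_subset,
    (X \ B) ∪ (B \ X) ∪ A, (h1.union h2).union hAf, ?_, ?_⟩
  · ext z
    simp only [mem_sdiff, mem_union, not_or, not_and, not_not]
    tauto
  · have e1 : B ∩ ((X \ B) ∪ (B \ X) ∪ A) = (B \ X) ∪ (A ∩ B) := by
      ext z
      simp only [mem_inter_iff, mem_union, mem_sdiff]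
      constructor
      · rintro ⟨h3, (h4 | h4) | h4⟩
        · exact absurd h3 h4.2
        · exact Or.inl h4
        · exact Or.inr ⟨h4, h3⟩
      · rintro (h3 | h3)
        · exact ⟨h3.1, Or.inl (Or.inr h3)⟩
        · exact ⟨h3.2, Or.inr h3.1⟩
    have e2 : (X \ A) ∩ ((X \ B) ∪ (B \ X) ∪ A) = (X \ B) \ (A \ B) := by
      ext z
      simp only [mem_inter_iff, mem_union, mem_sdiff]
      constructor
      · rintro ⟨⟨h3, h5⟩, (h4 | h4) | h4⟩
        · exact ⟨h4, fun h => h5 h.1⟩
        · exact absurd h3 h4.2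
        · exact absurd h4 h5
      · rintro ⟨⟨h3, h4⟩, h5⟩
        exact ⟨⟨h3, fun h => h5 ⟨h, h4⟩⟩, Or.inl (Or.inl ⟨h3, h4⟩)⟩
    have e3 : (A ∩ B).ncard + (A \ B).ncard = A.ncard := ncard_inter_add_ncard_sdiff_eq_ncard A B hAf
    have e4 : (A \ B) ⊆ X \ B := fun z hz => ⟨(hAX hz.1).1, hz.2⟩
    have e5 := ncard_sdiff e4 (h1.subset e4)
    have e6 : (A \ B).ncard ≤ (X \ B).ncard := ncard_le_ncard e4 h1
    rw [e1, e2, ncard_union_eq _ h2 (hAf.subset inter_subset_left), e5]
    · omega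
    · rw [disjoint_left]
      rintro z h3 h4
      exact h3.2 (hAX h4.1).1

/-- If `B \ S` is finite and `S \ B` infinite, some subset of `S` is finitely equivalent
to `B`. -/
theorem Fe.below {B S : Set α} (h1 : (B \ S).Finite) (h2 : (S \ B).Infinite) :
    ∃ S', S' ⊆ S ∧ Fe B S' := by
  obtain ⟨A, hA, hAf, hAc⟩ := h2.exists_subset_ncard_eq (B \ S).ncard
  refine ⟨(B ∩ S) ∪ A, union_subset inter_subset_right (hA.trans sdiff_subset),
    (B \ S) ∪ A, h1.union hAf, ?_, ?_⟩
  · ext z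
    have := @hA z
    simp only [mem_sdiff, mem_union, not_or, mem_inter_iff] at *
    tauto
  · have e1 : B ∩ ((B \ S) ∪ A) = B \ S := by
      ext z
      have := @hA z
      simp only [mem_sdiff, mem_union, mem_inter_iff] at *
      tauto
    have e2 : ((B ∩ S) ∪ A) ∩ ((B \ S) ∪ A) = A := by
      ext z
      have := @hA z
      simp only [mem_sdiff, mem_union, mem_inter_iff] at *
      tauto
    rw [e1, e2, hAc]

theorem Fe.compl {A B : Set α} (h : Fe A B) : Fe Aᶜ Bᶜ := by
  obtain ⟨U, hU, h1, h2⟩ := h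
  refine ⟨U, hU, ?_, ?_⟩
  · ext z
    have := Set.ext_iff.1 h1 z
    simp only [mem_sdiff, mem_compl_iff] at *
    tauto
  · have e : ∀ C : Set α, (Cᶜ ∩ U).ncard + (C ∩ U).ncard = U.ncard := by
      intro C
      rw [← ncard_union_eq _ (hU.subset inter_subset_right) (hU.subset inter_subset_right)]
      · congr 1
        ext z
        simp only [mem_union, mem_inter_iff, mem_compl_iff]
        tauto
      · rw [disjoint_left]
        rintro z h3 h4
        exact h3.1 h4.1
    have e1 := e A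
    have e2 := e B
    omega

theorem Fe.above {B S : Set α} (h1 : (S \ B).Finite) (h2 : (B \ S).Infinite) :
    ∃ S', S ⊆ S' ∧ Fe B S' := by
  have e1 : Bᶜ \ Sᶜ = S \ B := by
    ext z; simp only [mem_sdiff, mem_compl_iff, not_not]; tauto
  have e2 : Sᶜ \ Bᶜ = B \ S := by
    ext z; simp only [mem_sdiff, mem_compl_iff, not_not]; tauto
  obtain ⟨S', h3, h4⟩ := Fe.below (B := Bᶜ) (S := Sᶜ) (by rwa [e1]) (by rwa [e2])
  refine ⟨S'ᶜ, subset_compl_comm.1 h3, ?_⟩
  have := h4.compl
  rwa [compl_compl] at this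

end Vale.Agent.H6.InfMat
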