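import Vale.Agent.H6.InfMat.Defs

/-!
A packing/covering partition of `M` and the dual of `N` gives intersection for `(M, N)`.
-/

open Set Matroid

namespace Vale.Agent.H6.InfMat

theorem satisfies_of_packing {α : Type} {M N : Matroid α} (hM : M.E = univ) (hN : N.E = univ)
    (h : HasPackingCovering univ (fun b : Bool => cond b M N✶)) : SatisfiesIntersection M N := by
  obtain ⟨P, C, hPC, hPCu, S, I, hS, hI, hdis, hcl, hind, hcov⟩ := h
  have hSd : Disjoint (S true) (S false) := hdis true false (by simp)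
  have h1 : (M ↾ P).closure (S true) = P := hcl true
  have h2 : (N✶ ↾ P).closure (S false) = P := hcl false
  have h3 : (M✶ ↾ C)✶.Indep (I true) := hind true
  have h4 : (N✶✶ ↾ C)✶.Indep (I false) := hind false
  rw [dual_dual] at h4
  have hIC : ∀ x ∈ C, x ∈ I true ∨ x ∈ I false := by
    intro x hx
    rw [← hcov] at hx
    obtain ⟨b, hb⟩ := mem_iUnion.1 hx
    cases b
    · exact Or.inr hb
    · exact Or.inl hb
  have hCP : C = univ \ P := by
    ext x
    have h5 : x ∈ P ∪ C := hPCu ▸ mem_univ x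
    constructor
    · exact fun hx => ⟨mem_univ x, fun hx' => disjoint_left.1 hPC hx' hx⟩
    · rintro ⟨_, hx⟩
      exact h5.resolve_left hx
  have hPC' : P = univ \ C := by
    rw [hCP, sdiff_sdiff_cancel_left (subset_univ P)]
  -- a basis of `P` inside `S true`
  obtain ⟨J₁, hJ₁⟩ := M.exists_isBasis (S true) (by rw [hM]; exact subset_univ _)
  have hJ₁cl : P ⊆ M.closure J₁ := by
    rw [hJ₁.closure_eq_closure]
    rw [restrict_closure_eq M (hS true) (by rw [hM]; exact subset_univ _)] at h1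
    intro x hx
    rw [← h1] at hx
    exact hx.1
  have hJ₁P : J₁ ⊆ P := hJ₁.subset.trans (hS true)
  have hJ₁b : M.IsBasis J₁ P := hJ₁.indep.isBasis_of_subset_of_subset_closure hJ₁P hJ₁cl
  have hJ₁N : (N✶ ↾ P)✶.Indep J₁ := by
    have h5 : (N✶ ↾ P).Spanning (S false) := by
      rw [spanning_iff_closure_eq (by rw [restrict_ground_eq]; exact hS false), h2]
      rfl
    have h6 := h5.compl_coindep
    rw [coindep_def] at h6
    refine h6.subset ?_
    intro x hx
    exact ⟨hJ₁P hx, fun hx' => disjoint_left.1 hSd (hJ₁.subset hx) hx'⟩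
  -- a basis of `C` avoiding `I false`
  obtain ⟨J₂, hJ₂⟩ := N.exists_isBasis (C \ I false) (by rw [hN]; exact subset_univ _)
  have hJ₂C : J₂ ⊆ C := hJ₂.subset.trans sdiff_subset
  have hJ₂cl : C ⊆ N.closure J₂ := by
    rw [hJ₂.closure_eq_closure]
    have h5 : (N ↾ C).Spanning (C \ I false) := by
      have h6 : (N ↾ C).Coindep (I false) := h4
      exact h6.compl_spanning
    have h6 := h5.closure_eq
    rw [restrict_closure_eq N sdiff_subset (by rw [hN]; exact subset_univ _)] at h6
    intro x hx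
    have h7 : x ∈ (N ↾ C).E := hx
    rw [← h6] at h7
    exact h7.1
  have hJ₂b : N.IsBasis J₂ C := hJ₂.indep.isBasis_of_subset_of_subset_closure hJ₂C hJ₂cl
  have hJ₂M : (M✶ ↾ C)✶.Indep J₂ := by
    refine h3.subset ?_
    intro x hx
    exact (hIC x (hJ₂C hx)).resolve_right (hJ₂.subset hx).2
  -- contractions
  have e1 : (N✶ ↾ P)✶ = N ／ C := by
    rw [← dual_delete_dual, delete_eq_restrict, dual_ground, hN, ← hPC']
  have e2 : (M✶ ↾ C)✶ = M ／ P := by
    rw [← dual_delete_dual, delete_eq_restrict, dual_ground, hM, ← hCP]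
  rw [e1, hJ₂b.contract_indep_iff] at hJ₁N
  rw [e2, hJ₁b.contract_indep_iff] at hJ₂M
  refine ⟨J₁, J₂, hPC.mono hJ₁P hJ₂C, ?_, hJ₁N.1, ?_⟩
  · rw [union_comm]
    exact hJ₂M.1
  · rw [hM]
    ext x
    simp only [mem_union, mem_univ, iff_true]
    have h5 : x ∈ P ∪ C := hPCu ▸ mem_univ x
    rcases h5 with h5 | h5
    · exact Or.inl (hJ₁cl h5)
    · exact Or.inr (hJ₂cl h5)

end Vale.Agent.H6.InfMat
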