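import Vale.Agent.H6.InfMat.Node
import Vale.Agent.H6.InfMat.Defs

/-!
The two-way infinite path of uniform matroids does not satisfy intersection.
-/

open Set Filter Matroid

namespace Vale.Agent.H6.InfMat

/-- all bases are closed under every exchange -/
def Exch {α : Type*} (U : Matroid α) : Prop :=
  ∀ B x y, U.IsBase B → x ∈ B → y ∉ B → U.IsBase (insert y (B \ {x}))

theorem Exch.dual {α : Type*} {U : Matroid α} (hE : U.E = univ) (h : Exch U) : Exch U✶ := by
  intro B x y hB hx hy
  rw [Matroid.dual_isBase_iff (by rw [hE]; exact subset_univ _), hE] at hB ⊢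
  have h1 : y ∈ univ \ B := ⟨mem_univ _, hy⟩
  have h2 : x ∉ univ \ B := fun h => h.2 hx
  have h3 := h _ y x hB h1 h2
  convert h3 using 1
  ext z
  have hxy : x ≠ y := fun h => hy (h ▸ hx)
  simp only [Set.mem_sdiff, mem_univ, true_and, mem_insert_iff, mem_singleton_iff, not_or,
    not_and, not_not]
  constructor
  · rintro ⟨h4, h5⟩
    by_cases h6 : z ∈ B
    · exact Or.inl (h5 h6)
    · exact Or.inr ⟨h6, h4⟩
  · rintro (h4 | h4)
    · exact ⟨h4 ▸ hxy, fun _ => h4⟩
    · exact ⟨h4.2, fun h => absurd h h4.1⟩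

theorem Exch.insert_indep {α : Type*} {U : Matroid α} (h : Exch U) {I : Set α} (hI : U.Indep I)
    (hb : ¬ U.IsBase I) (x : α) : U.Indep (insert x I) := by
  obtain ⟨B, hB, hIB⟩ := hI.exists_isBase_superset
  have h1 : ∃ b ∈ B, b ∉ I := by
    by_contra h2
    push Not at h2
    exact hb ((subset_antisymm hIB h2) ▸ hB)
  obtain ⟨b, hbB, hbI⟩ := h1
  by_cases hx : x ∈ B
  · exact hB.indep.subset (insert_subset hx hIB)
  · refine (h B b x hB hbB hx).indep.subset (insert_subset (mem_insert _ _) ?_)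
    intro z hz
    exact Or.inr ⟨hIB hz, fun h => hbI (h ▸ hz)⟩

theorem mem_of_mem_closure_sigma {ι : Type*} {β : ι → Type*} {V : (i : ι) → Matroid (β i)}
    (hE : ∀ i, Exch (V i)) {J : Set ((i : ι) × β i)} (hJ : (Matroid.sigma V).Indep J)
    {i : ι} (hb : ¬ (V i).IsBase (Sigma.mk i ⁻¹' J)) {x : β i}
    (hx : (⟨i, x⟩ : (i : ι) × β i) ∈ (Matroid.sigma V).closure J) :
    (⟨i, x⟩ : (i : ι) × β i) ∈ J := by
  rw [hJ.mem_closure_iff'] at hx
  refine hx.2 ?_
  rw [Matroid.sigma_indep_iff] at hJ ⊢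
  intro k
  by_cases hk : k = i
  · subst hk
    have : Sigma.mk k ⁻¹' (insert (⟨k, x⟩ : (i : ι) × β i) J) = insert x (Sigma.mk k ⁻¹' J) := by
      ext z
      simp
    rw [this]
    exact (hE k).insert_indep (hJ k) hb x
  · have : Sigma.mk k ⁻¹' (insert (⟨i, x⟩ : (i : ι) × β i) J) = Sigma.mk k ⁻¹' J := by
      ext z
      simp only [mem_preimage, mem_insert_iff, Sigma.mk.injEq, or_iff_right_iff_imp]
      rintro ⟨h, _⟩
      exact absurd h hk
    rw [this]
    exact hJ k

/-- the ground set -/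
abbrev G : Type := (_ : Bool × ℕ) × (F ⊕ F)

/-- the part of a set in one node -/
def nd (J : Set G) (p : Bool × ℕ) : Set (F ⊕ F) := {x | (⟨p, x⟩ : G) ∈ J}

/-- the pairs of parallel elements -/
def prj (x : G) : Bool × ℕ × F :=
  Sum.elim (fun f => (if x.1.2 = 0 then true else x.1.1, x.1.2, f))
    (fun f => (x.1.1, x.1.2 + 1, f)) x.2

/-- direct sum of countably many rank-one matroids on two elements -/
def Nmat : Matroid G := (Matroid.freeOn univ).comap prj

theorem Nmat_E : Nmat.E = univ := by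
  unfold Nmat
  simp

theorem Nmat_indep {J : Set G} : Nmat.Indep J ↔ InjOn prj J := by
  unfold Nmat
  simp

theorem Nmat_closure {J : Set G} (hJ : Nmat.Indep J) {e : G} (he : e ∈ Nmat.closure J) :
    ∃ y ∈ J, prj y = prj e := by
  rw [hJ.mem_closure_iff'] at he
  by_contra h
  push Not at h
  have h1 : Nmat.Indep (insert e J) := by
    rw [Nmat_indep] at hJ ⊢
    rintro x (rfl | hx) y (rfl | hy) hxy
    · rfl
    · exact absurd hxy.symm (h y hy)
    · exact absurd hxy (h x hx)
    · exact hJ hx hy hxy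
  exact h e (he.2 h1) rfl

/-- the node matroids -/
def Vmat (U : Matroid (F ⊕ F)) (p : Bool × ℕ) : Matroid (F ⊕ F) := cond p.1 U U✶

/-- the direct sum of the node matroids -/
def Mmat (U : Matroid (F ⊕ F)) : Matroid G := Matroid.sigma (fun p : Bool × ℕ => Vmat U p)

theorem fibre_succ {s : Bool} {j : ℕ} {f : F} {y : G} (h : prj y = (s, j + 1, f)) :
    y = ⟨(s, j), Sum.inr f⟩ ∨ y = ⟨(s, j + 1), Sum.inl f⟩ := by
  obtain ⟨⟨s', j'⟩, x | x⟩ := y
  · right
    simp only [prj, Sum.elim_inl, Prod.mk.injEq] at h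
    obtain ⟨h1, h2, h3⟩ := h
    rw [if_neg (by omega)] at h1
    rw [h1, h2, h3]
  · left
    simp only [prj, Sum.elim_inr, Prod.mk.injEq] at h
    obtain ⟨h1, h2, h3⟩ := h
    have h4 : j' = j := by omega
    rw [h1, h4, h3]

theorem fibre_zero {f : F} {y : G} (h : prj y = (true, 0, f)) :
    y = ⟨(true, 0), Sum.inl f⟩ ∨ y = ⟨(false, 0), Sum.inl f⟩ := by
  obtain ⟨⟨s', j'⟩, x | x⟩ := y
  · simp only [prj, Sum.elim_inl, Prod.mk.injEq] at h
    obtain ⟨_, h2, h3⟩ := h
    cases s'
    · right; rw [h2, h3]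
    · left; rw [h2, h3]
  · simp only [prj, Sum.elim_inr, Prod.mk.injEq] at h
    omega

theorem no_descent_nat (P : ℕ → Prop) (ρ : ℕ → ℕ) (h : ∀ j, P j → P (j + 1) ∧ ρ (j + 1) < ρ j) :
    ¬ P 0 := by
  intro h0
  have h1 : ∀ j, P j := fun j => Nat.rec h0 (fun j hj => (h j hj).1) j
  have h2 : ∀ j, ρ j + j ≤ ρ 0 := by
    intro j
    induction j with
    | zero => simp
    | succ j ih =>
      have := (h j (h1 j)).2
      omega
  have := h2 (ρ 0 + 1)
  omega

theorem no_descent {β : Type*} {r : β → β → Prop} (wf : WellFounded r) (P : ℕ → Prop) (ρ : ℕ → β)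
    (h : ∀ j, P j → P (j + 1) ∧ r (ρ (j + 1)) (ρ j)) : ¬ P 0 := by
  intro h0
  have h1 : ∀ j, P j := fun j => Nat.rec h0 (fun j hj => (h j hj).1) j
  have h2 : ∀ j, r (ρ (j + 1)) (ρ j) := fun j => (h j (h1 j)).2
  have h3 := wf.has_min (range ρ) ⟨ρ 0, mem_range_self 0⟩
  obtain ⟨_, ⟨j, rfl⟩, hj⟩ := h3
  exact hj (ρ (j + 1)) (mem_range_self _) (h2 j)

section
variable (r : (ℕ → ℕ) → (ℕ → ℕ) → Prop) [hwo : IsWellOrder (ℕ → ℕ) r]

/-- the properties of the uniform matroid that are used -/
structure NodeOK (U : Matroid (F ⊕ F)) : Prop where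
  ground : U.E = univ
  base : ∀ B, U.IsBase B → B ∉ Dset ∧ B ∉ Nset r
  exch : Exch U

variable {r} {U : Matroid (F ⊕ F)}

theorem NodeOK.indep (hU : NodeOK r U) {A : Set (F ⊕ F)} (hA : U.Indep A) : A ∉ Dset := by
  obtain ⟨B, hB, hAB⟩ := hA.exists_isBase_superset
  intro h
  refine (hU.base B hB).1 (Dset_mono (Le.of_subset ?_) (Le.of_subset ?_) h)
  · exact fun f hf => hAB hf
  · exact fun f hf hf' => hf (hAB hf')

theorem NodeOK.spanning (hU : NodeOK r U) {A B : Set (F ⊕ F)} (hB : U.IsBase B) (hBA : B ⊆ A) :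
    A ∉ Nset r := by
  intro h
  refine (hU.base B hB).2 (Nset_mono r (Le.of_subset ?_) (Le.of_subset ?_) h)
  · exact fun f hf => hBA hf
  · exact fun f hf hf' => hf (hBA hf')

theorem NodeOK.dual_indep (hU : NodeOK r U) {A : Set (F ⊕ F)} (hA : U✶.Indep A) :
    Aᶜ ∉ Nset r := by
  obtain ⟨B, hB, hAB⟩ := hA.exists_isBase_superset
  rw [Matroid.dual_isBase_iff (by rw [hU.ground]; exact subset_univ _), hU.ground] at hB
  exact hU.spanning hB (fun x hx hx' => hx.2 (hAB hx'))

theorem NodeOK.dual_base (hU : NodeOK r U) {A : Set (F ⊕ F)} (hA : U✶.IsBase A) :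
    Aᶜ ∉ Dset := by
  rw [Matroid.dual_isBase_iff (by rw [hU.ground]; exact subset_univ _), hU.ground] at hA
  rw [compl_eq_univ_sdiff]
  exact (hU.base _ hA).1

theorem Dset_of_univ {A : Set (F ⊕ F)} (h : Tp A = univ) : A ∈ Dset := by
  refine ⟨h ▸ not_low_univ, ?_⟩
  by_cases h1 : Low (Rp A)
  · exact Or.inl h1
  · right
    rw [h]
    exact hr_anti (Le.of_subset (subset_univ _)) h1

theorem Nset_of_empty {A : Set (F ⊕ F)} (h : Tp A = ∅) : A ∈ Nset r := by
  refine ⟨h ▸ low_empty, ?_⟩
  by_cases h1 : Low (Rp A)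
  · right
    rw [h]
    exact lr_mono r (Le.of_subset (empty_subset _)) h1
  · exact Or.inl h1

theorem Tp_compl (A : Set (F ⊕ F)) : Tp Aᶜ = (Tp A)ᶜ := rfl

theorem Rp_compl (A : Set (F ⊕ F)) : Rp Aᶜ = (Rp A)ᶜ := rfl

theorem node_indep (hU : NodeOK r U) (s : Bool) (j : ℕ) {A : Set (F ⊕ F)}
    (hA : (Vmat U (s, j)).Indep A) : Tp A ≠ univ := by
  intro h
  cases s with
  | true => exact hU.indep hA (Dset_of_univ h)
  | false => exact hU.dual_indep hA (Nset_of_empty (by rw [Tp_compl, h, compl_univ]))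

theorem node_base (hU : NodeOK r U) (s : Bool) (j : ℕ) {A : Set (F ⊕ F)}
    (hA : (Vmat U (s, j)).IsBase A) : Tp A ≠ ∅ := by
  intro h
  cases s with
  | true => exact (hU.base A hA).2 (Nset_of_empty h)
  | false => exact hU.dual_base hA (Dset_of_univ (by rw [Tp_compl, h, compl_empty]))

theorem Vmat_exch (hU : NodeOK r U) (p : Bool × ℕ) : Exch (Vmat U p) := by
  obtain ⟨s, j⟩ := p
  cases s with
  | true => exact hU.exch
  | false => exact hU.exch.dual hU.ground

theorem no_intersection (hU : NodeOK r U) : ¬ SatisfiesIntersection (Mmat U) Nmat := by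
  rintro ⟨J₁, J₂, hdisj, hM, hN, hcl⟩
  have hdj : ∀ e, e ∈ J₁ → e ∈ J₂ → False := fun e h1 h2 => disjoint_left.1 hdisj h1 h2
  have hME : (Mmat U).E = univ := by
    unfold Mmat
    rw [Matroid.sigma_ground_eq]
    ext ⟨p, x⟩
    obtain ⟨s, j⟩ := p
    cases s <;> simp [Vmat, hU.ground]
  rw [hME] at hcl
  have hcov : ∀ e, e ∈ (Mmat U).closure J₁ ∨ e ∈ Nmat.closure J₂ := fun e => by
    have : e ∈ (univ : Set G) := mem_univ e
    rw [← hcl] at this
    exact this
  have hM1 : (Mmat U).Indep J₁ := hM.subset subset_union_left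
  have hN2 : Nmat.Indep J₂ := hN.subset subset_union_right
  have hinj : InjOn prj (J₁ ∪ J₂) := Nmat_indep.1 hN
  -- components
  have hind : ∀ p, (Vmat U p).Indep (nd (J₁ ∪ J₂) p) := by
    have := hM
    unfold Mmat at this
    rw [Matroid.sigma_indep_iff] at this
    exact this
  let A : Bool → ℕ → Set (F ⊕ F) := fun s j => nd (J₁ ∪ J₂) (s, j)
  let X : Bool → ℕ → Prop := fun s j => (Vmat U (s, j)).IsBase (nd J₁ (s, j))
  have hAind : ∀ s j, (Vmat U (s, j)).Indep (A s j) := fun s j => hind (s, j)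
  have hXeq : ∀ s j, X s j → A s j = nd J₁ (s, j) := by
    intro s j h
    have h1 : nd J₁ (s, j) ⊆ A s j := fun x hx => Or.inl hx
    exact (h.eq_of_subset_indep (hAind s j) h1).symm
  have hXbase : ∀ s j, X s j → (Vmat U (s, j)).IsBase (A s j) := by
    intro s j h
    rw [hXeq s j h]
    exact h
  have hX2 : ∀ s j, X s j → ∀ x, (⟨(s, j), x⟩ : G) ∉ J₂ := by
    intro s j h x hx
    have h1 : x ∈ A s j := Or.inr hx
    rw [hXeq s j h] at h1
    exact hdj _ h1 hx
  have hnX : ∀ s j, ¬ X s j → ∀ x, (⟨(s, j), x⟩ : G) ∈ J₁ ∨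
      ∃ y ∈ J₂, prj y = prj ⟨(s, j), x⟩ := by
    intro s j h x
    rcases hcov ⟨(s, j), x⟩ with h1 | h1
    · left
      exact mem_of_mem_closure_sigma (V := fun p : Bool × ℕ => Vmat U p)
        (fun p => Vmat_exch hU p) hM1 h h1
    · exact Or.inr (Nmat_closure hN2 h1)
  -- projections of the elements
  have pr_inr : ∀ s j f, prj ⟨(s, j), Sum.inr f⟩ = (s, j + 1, f) := fun _ _ _ => rfl
  have pr_inl : ∀ s j f, prj ⟨(s, j + 1), Sum.inl f⟩ = (s, j + 1, f) := fun _ _ _ => rfl
  have pr_z : ∀ s f, prj ⟨(s, 0), Sum.inl f⟩ = (true, 0, f) := fun _ _ => rfl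
  -- interface facts
  have g1 : ∀ s j f, Sum.inr f ∈ A s j → Sum.inl f ∉ A s (j + 1) := by
    intro s j f h1 h2
    have := hinj h1 h2 (by rw [pr_inr, pr_inl])
    simp at this
  have g2 : ∀ s j f, (¬ X s j ∨ ¬ X s (j + 1)) →
      Sum.inr f ∈ A s j ∨ Sum.inl f ∈ A s (j + 1) := by
    intro s j f h
    rcases h with h | h
    · rcases hnX s j h (Sum.inr f) with h1 | ⟨y, hy, hy'⟩
      · exact Or.inl (Or.inl h1)
      · rw [pr_inr] at hy'
        rcases fibre_succ hy' with rfl | rfl
        · exact Or.inl (Or.inr hy)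
        · exact Or.inr (Or.inr hy)
    · rcases hnX s (j + 1) h (Sum.inl f) with h1 | ⟨y, hy, hy'⟩
      · exact Or.inr (Or.inl h1)
      · rw [pr_inl] at hy'
        rcases fibre_succ hy' with rfl | rfl
        · exact Or.inl (Or.inr hy)
        · exact Or.inr (Or.inr hy)
  have g3 : ∀ s j, X s j → X s (j + 1) := by
    intro s j h
    by_contra h'
    refine node_indep hU s (j + 1) (hAind s (j + 1)) ?_
    ext f
    simp only [mem_univ, iff_true]
    change Sum.inl f ∈ A s (j + 1)
    rcases hnX s (j + 1) h' (Sum.inl f) with h1 | ⟨y, hy, hy'⟩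
    · exact Or.inl h1
    · rw [pr_inl] at hy'
      rcases fibre_succ hy' with rfl | rfl
      · exact absurd hy (hX2 s j h _)
      · exact Or.inr hy
  have g4 : ∀ s j, X s (j + 1) → X s j := by
    intro s j h
    by_contra h'
    refine node_base hU s (j + 1) (hXbase s (j + 1) h) ?_
    ext f
    simp only [mem_empty_iff_false, iff_false]
    refine g1 s j f ?_
    rcases hnX s j h' (Sum.inr f) with h1 | ⟨y, hy, hy'⟩
    · exact Or.inl h1
    · rw [pr_inr] at hy'
      rcases fibre_succ hy' with rfl | rfl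
      · exact Or.inr hy
      · exact absurd hy (hX2 s (j + 1) h _)
  have c1 : ∀ f, Sum.inl f ∈ A true 0 → Sum.inl f ∉ A false 0 := by
    intro f h1 h2
    have := hinj h1 h2 (by rw [pr_z, pr_z])
    simp at this
  have c2 : ∀ f s, ¬ X s 0 → Sum.inl f ∈ A true 0 ∨ Sum.inl f ∈ A false 0 := by
    intro f s h
    rcases hnX s 0 h (Sum.inl f) with h1 | ⟨y, hy, hy'⟩
    · cases s
      · exact Or.inr (Or.inl h1)
      · exact Or.inl (Or.inl h1)
    · rw [pr_z] at hy'
      rcases fibre_zero hy' with rfl | rfl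
      · exact Or.inl (Or.inr hy)
      · exact Or.inr (Or.inr hy)
  have c3 : ∀ s, X s 0 → X (!s) 0 := by
    intro s h
    by_contra h'
    refine node_indep hU (!s) 0 (hAind (!s) 0) ?_
    ext f
    simp only [mem_univ, iff_true]
    change Sum.inl f ∈ A (!s) 0
    rcases hnX (!s) 0 h' (Sum.inl f) with h1 | ⟨y, hy, hy'⟩
    · exact Or.inl h1
    · rw [pr_z] at hy'
      cases s
      · rcases fibre_zero hy' with rfl | rfl
        · exact Or.inr hy
        · exact absurd hy (hX2 false 0 h _)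
      · rcases fibre_zero hy' with rfl | rfl
        · exact absurd hy (hX2 true 0 h _)
        · exact Or.inr hy
  have hall : (∀ s j, X s j) ∨ (∀ s j, ¬ X s j) := by
    have h1 : ∀ s j, X s j ↔ X s 0 := by
      intro s j
      induction j with
      | zero => exact Iff.rfl
      | succ j ih => exact ⟨fun h => ih.1 (g4 s j h), fun h => g3 s j (ih.2 h)⟩
    have h2 : X false 0 ↔ X true 0 := ⟨fun h => c3 false h, fun h => c3 true h⟩
    by_cases h : X true 0
    · left
      intro s j
      rw [h1]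
      cases s
      · exact h2.2 h
      · exact h
    · right
      intro s j
      rw [h1]
      cases s
      · exact fun h' => h (h2.1 h')
      · exact h
  rcases hall with hX | hX
  · -- everything is spanned
    have r1 : ¬ Low (Tp (A true 0)) := by
      refine no_descent hwo.wf (fun j => Low (Tp (A true j))) (fun j => lr r (Tp (A true j))) ?_
      intro j hj
      have h1 := (hU.base _ (hXbase true j (hX true j))).2
      have h2 : Low (Rp (A true j)) ∧ r (lr r (Rp (A true j))) (lr r (Tp (A true j))) := by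
        by_contra h3
        refine h1 ⟨hj, ?_⟩
        by_cases h4 : Low (Rp (A true j))
        · exact Or.inr (fun h5 => h3 ⟨h4, h5⟩)
        · exact Or.inl h4
      have h3 : Tp (A true (j + 1)) ⊆ Rp (A true j) := fun f hf hf' => g1 true j f hf' hf
      refine ⟨h2.1.mono (Le.of_subset h3), ?_⟩
      have h4 := lr_mono r (Le.of_subset h3) h2.1
      by_contra h5
      exact not_r_trans r h4 h5 h2.2
    have r2 : ¬ (¬ Low (Tp (A false 0)ᶜ)) := by
      refine no_descent_nat (fun j => ¬ Low (Tp (A false j)ᶜ))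
        (fun j => hr (Tp (A false j)ᶜ)) ?_
      intro j hj
      have h1 := hU.dual_base (hXbase false j (hX false j))
      have h2 : ¬ Low (Rp (A false j)ᶜ) ∧ hr (Rp (A false j)ᶜ) < hr (Tp (A false j)ᶜ) := by
        by_contra h3
        refine h1 ⟨hj, ?_⟩
        by_cases h4 : Low (Rp (A false j)ᶜ)
        · exact Or.inl h4
        · right
          by_contra h5
          exact h3 ⟨h4, not_le.1 h5⟩
      have h3 : Rp (A false j)ᶜ ⊆ Tp (A false (j + 1))ᶜ := by
        intro f hf hf'
        exact g1 false j f (not_not.1 hf) hf'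
      refine ⟨fun h => h2.1 (h.mono (Le.of_subset h3)), ?_⟩
      exact lt_of_le_of_lt (hr_anti (Le.of_subset h3) h2.1) h2.2
    rw [not_not] at r2
    refine r1 (r2.mono (Le.of_subset ?_))
    intro f hf hf'
    exact c1 f hf hf'
  · -- everything is covered
    have r1 : ¬ (¬ Low (Tp (A true 0))) := by
      refine no_descent_nat (fun j => ¬ Low (Tp (A true j))) (fun j => hr (Tp (A true j))) ?_
      intro j hj
      have h1 := hU.indep (hAind true j)
      have h2 : ¬ Low (Rp (A true j)) ∧ hr (Rp (A true j)) < hr (Tp (A true j)) := by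
        by_contra h3
        refine h1 ⟨hj, ?_⟩
        by_cases h4 : Low (Rp (A true j))
        · exact Or.inl h4
        · right
          by_contra h5
          exact h3 ⟨h4, not_le.1 h5⟩
      have h3 : Rp (A true j) = Tp (A true (j + 1)) := by
        ext f
        constructor
        · intro hf
          rcases g2 true j f (Or.inl (hX true j)) with h4 | h4
          · exact absurd h4 hf
          · exact h4
        · exact fun hf hf' => g1 true j f hf' hf
      rw [h3] at h2
      exact h2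
    have r2 : ¬ Low (Tp (A false 0)ᶜ) := by
      refine no_descent hwo.wf (fun j => Low (Tp (A false j)ᶜ))
        (fun j => lr r (Tp (A false j)ᶜ)) ?_
      intro j hj
      have h1 := hU.dual_indep (hAind false j)
      have h2 : Low (Rp (A false j)ᶜ) ∧
          r (lr r (Rp (A false j)ᶜ)) (lr r (Tp (A false j)ᶜ)) := by
        by_contra h3
        refine h1 ⟨hj, ?_⟩
        by_cases h4 : Low (Rp (A false j)ᶜ)
        · exact Or.inr (fun h5 => h3 ⟨h4, h5⟩)
        · exact Or.inl h4
      have h3 : Rp (A false j)ᶜ = Tp (A false (j + 1))ᶜ := by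
        ext f
        constructor
        · intro hf hf'
          exact g1 false j f (not_not.1 hf) hf'
        · intro hf hf'
          rcases g2 false j f (Or.inl (hX false j)) with h4 | h4
          · exact hf' h4
          · exact hf h4
      rw [h3] at h2
      exact h2
    rw [not_not] at r1
    refine r2 (r1.mono (Le.of_subset ?_))
    intro f hf
    rcases c2 f true (hX true 0) with h4 | h4
    · exact h4
    · exact absurd h4 hf

end

end Vale.Agent.H6.InfMat
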