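import Vale.Agent.H6.InfMat.Wo
import Vale.Agent.H6.InfMat.Path
import Vale.Agent.H6.InfMat.PackCover

/-!
Under the continuum hypothesis both the matroid intersection conjecture and the packing/covering
conjecture for infinite matroids fail, on a countable ground set.
-/

open Cardinal

namespace Vale.Agent.H6.InfMat

theorem exists_node (hCH : Cardinal.continuum.{0} = ℵ₁) :
    ∃ (r : (ℕ → ℕ) → (ℕ → ℕ) → Prop) (_ : IsWellOrder (ℕ → ℕ) r) (U : Matroid (F ⊕ F)),
      NodeOK r U := by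
  have h1 : #(ℕ → ℕ) ≤ ℵ₁ := by
    rw [← hCH]
    simp
  obtain ⟨r, hr, hc⟩ := exists_wo h1
  have h2 : #(Set (F ⊕ F) × Set (F ⊕ F)) ≤ ℵ₁ := by
    have h3 : #(Set (F ⊕ F)) ≤ Cardinal.continuum := by
      rw [Cardinal.mk_set]
      have h4 : #(F ⊕ F) ≤ ℵ₀ := Cardinal.mk_le_aleph0
      calc (2 : Cardinal) ^ #(F ⊕ F) ≤ 2 ^ ℵ₀ := Cardinal.power_le_power_left two_ne_zero h4
        _ = Cardinal.continuum := Cardinal.two_power_aleph0
    rw [← hCH, Cardinal.mk_prod, Cardinal.lift_id]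
    calc #(Set (F ⊕ F)) * #(Set (F ⊕ F)) ≤ Cardinal.continuum * Cardinal.continuum :=
          mul_le_mul' h3 h3
      _ = Cardinal.continuum := Cardinal.continuum_mul_self
  obtain ⟨t, ht, hd⟩ := exists_wo h2
  obtain ⟨U, hU1, hU2, hU3⟩ := exists_unif ht hd (forb r hc)
  exact ⟨r, hr, U, hU1, hU2, hU3⟩

end Vale.Agent.H6.InfMat

open Set Matroid

namespace Vale.Agent.H6.InfMat

theorem Mmat_E {r : (ℕ → ℕ) → (ℕ → ℕ) → Prop} [IsWellOrder (ℕ → ℕ) r] {U : Matroid (F ⊕ F)}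
    (hU : NodeOK r U) : (Mmat U).E = Set.univ := by
  unfold Mmat
  rw [Matroid.sigma_ground_eq]
  ext ⟨p, x⟩
  obtain ⟨s, j⟩ := p
  cases s <;> simp [Vmat, hU.ground]

theorem main (hCH : Cardinal.continuum.{0} = Cardinal.aleph 1) :
    (∃ (α : Type) (_ : Countable α) (M N : Matroid α), M.E = Set.univ ∧ N.E = Set.univ ∧
      ¬ SatisfiesIntersection M N) ∧
    (∃ (α : Type) (_ : Countable α) (M : Bool → Matroid α), (∀ i, (M i).E = Set.univ) ∧
      ¬ HasPackingCovering Set.univ M) := by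
  obtain ⟨r, hr, U, hU⟩ := exists_node hCH
  have hno : ¬ SatisfiesIntersection (Mmat U) Nmat := no_intersection hU
  refine ⟨⟨G, inferInstance, Mmat U, Nmat, Mmat_E hU, Nmat_E, hno⟩,
    ⟨G, inferInstance, fun b => cond b (Mmat U) Nmat✶, ?_, ?_⟩⟩
  · intro i
    cases i
    · simp [Nmat_E]
    · exact Mmat_E hU
  · intro h
    exact hno (satisfies_of_packing (Mmat_E hU) Nmat_E h)

end Vale.Agent.H6.InfMat
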