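import Mathlib

/-!
Labels and ranks of subsets of a countable union of finite blocks of sizes `2 ^ n`.
-/

open Set Filter

namespace Vale.Agent.H6.InfMat

/-- the disjoint union of blocks, the `n`-th block has `2 ^ n` elements -/
abbrev F : Type := (n : ℕ) × Fin (2 ^ n)

/-- number of elements of `T` in the `n`-th block -/
noncomputable def cnt (T : Set F) (n : ℕ) : ℕ := {i : Fin (2 ^ n) | (⟨n, i⟩ : F) ∈ T}.ncard

theorem cnt_mono {S T : Set F} (h : S ⊆ T) (n : ℕ) : cnt S n ≤ cnt T n :=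
  ncard_le_ncard (fun _ hi => h hi) (toFinite _)

theorem cnt_le (T : Set F) (n : ℕ) : cnt T n ≤ 2 ^ n := by
  have := ncard_le_ncard (subset_univ {i : Fin (2 ^ n) | (⟨n, i⟩ : F) ∈ T}) (toFinite _)
  rwa [ncard_univ, Nat.card_fin] at this

theorem cnt_univ (n : ℕ) : cnt univ n = 2 ^ n := by
  unfold cnt
  have : {i : Fin (2 ^ n) | (⟨n, i⟩ : F) ∈ (univ : Set F)} = univ := by ext; simp
  rw [this, ncard_univ, Nat.card_fin]

theorem cnt_empty (n : ℕ) : cnt ∅ n = 0 := by
  unfold cnt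
  have : {i : Fin (2 ^ n) | (⟨n, i⟩ : F) ∈ (∅ : Set F)} = ∅ := by ext; simp
  rw [this, ncard_empty]

/-- comparison up to bounded differences, in almost all blocks -/
def Le (S T : Set F) : Prop := ∃ c, ∀ᶠ n in atTop, cnt S n ≤ cnt T n + c

theorem Le.of_subset {S T : Set F} (h : S ⊆ T) : Le S T :=
  ⟨0, Eventually.of_forall (fun n => by simpa using cnt_mono h n)⟩

/-- functions growing slower than all `2 ^ (n - k)` -/
def Sm (g : ℕ → ℕ) : Prop := ∀ k c : ℕ, ∀ᶠ n in atTop, g n + c ≤ 2 ^ (n - k)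

/-- low sets -/
def Low (T : Set F) : Prop := Sm (cnt T)

theorem Low.mono {S T : Set F} (h : Le S T) (hT : Low T) : Low S := by
  intro k c
  obtain ⟨d, hd⟩ := h
  filter_upwards [hd, hT k (c + d)] with n h1 h2
  omega

/-- the rank of a set that is not low -/
noncomputable def hr (T : Set F) : ℕ := sInf {k | ∃ c, ∃ᶠ n in atTop, 2 ^ (n - k) < cnt T n + c}

theorem hr_set_nonempty {T : Set F} (h : ¬ Low T) :
    {k | ∃ c, ∃ᶠ n in atTop, 2 ^ (n - k) < cnt T n + c}.Nonempty := by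
  unfold Low Sm at h
  push Not at h
  obtain ⟨k, c, h1⟩ := h
  exact ⟨k, c, by simpa using h1⟩

theorem hr_anti {S T : Set F} (h : Le S T) (hS : ¬ Low S) : hr T ≤ hr S := by
  have h1 : hr S ∈ {k | ∃ c, ∃ᶠ n in atTop, 2 ^ (n - k) < cnt S n + c} :=
    Nat.sInf_mem (hr_set_nonempty hS)
  obtain ⟨c, hc⟩ := h1
  obtain ⟨d, hd⟩ := h
  refine Nat.sInf_le ⟨c + d, ?_⟩
  refine (hc.and_eventually hd).mono ?_
  rintro n ⟨h2, h3⟩
  omega

theorem hr_spec {T : Set F} (h : ¬ Low T) :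
    ∃ c, ∃ᶠ n in atTop, 2 ^ (n - hr T) < cnt T n + c :=
  Nat.sInf_mem (hr_set_nonempty h)

section
variable (r : (ℕ → ℕ) → (ℕ → ℕ) → Prop) [hwo : IsWellOrder (ℕ → ℕ) r]

/-- small functions dominating the counting function of `T` -/
def Dom (T : Set F) : Set (ℕ → ℕ) := {g | Sm g ∧ ∃ c, ∀ᶠ n in atTop, cnt T n ≤ g n + c}

theorem Dom_nonempty {T : Set F} (h : Low T) : (Dom T).Nonempty :=
  ⟨cnt T, h, 0, Eventually.of_forall (fun n => by simp)⟩

theorem Dom_anti {S T : Set F} (h : Le S T) : Dom T ⊆ Dom S := by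
  rintro g ⟨h1, c, h2⟩
  obtain ⟨d, hd⟩ := h
  refine ⟨h1, c + d, ?_⟩
  filter_upwards [hd, h2] with n h3 h4
  omega

open Classical in
/-- the rank of a low set -/
noncomputable def lr (T : Set F) : ℕ → ℕ :=
  if h : (Dom T).Nonempty then hwo.wf.min (Dom T) h else 0

theorem lr_mem {T : Set F} (h : Low T) : lr r T ∈ Dom T := by
  unfold lr
  rw [dif_pos (Dom_nonempty h)]
  exact WellFounded.min_mem _ _ _

theorem lr_min {T : Set F} (h : Low T) {g : ℕ → ℕ} (hg : g ∈ Dom T) : ¬ r g (lr r T) := by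
  unfold lr
  rw [dif_pos (Dom_nonempty h)]
  exact WellFounded.not_lt_min _ _ hg

theorem lr_mono {S T : Set F} (h : Le S T) (hT : Low T) : ¬ r (lr r T) (lr r S) :=
  lr_min r (hT.mono h) (Dom_anti h (lr_mem r hT))

end

/-- choosing a set with prescribed counts between two sets -/
theorem exists_cnt {S T : Set F} (h : S ⊆ T) (g : ℕ → ℕ) :
    ∃ A, S ⊆ A ∧ A ⊆ T ∧ ∀ n, cnt A n = max (cnt S n) (min (cnt T n) (g n)) := by
  have h1 : ∀ n, ∃ u : Set (Fin (2 ^ n)), {i : Fin (2 ^ n) | (⟨n, i⟩ : F) ∈ S} ⊆ u ∧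
      u ⊆ {i : Fin (2 ^ n) | (⟨n, i⟩ : F) ∈ T} ∧
      u.ncard = max (cnt S n) (min (cnt T n) (g n)) := by
    intro n
    obtain ⟨u, h1, h2, h3⟩ := exists_subsuperset_card_eq
      (s := {i : Fin (2 ^ n) | (⟨n, i⟩ : F) ∈ S}) (t := {i : Fin (2 ^ n) | (⟨n, i⟩ : F) ∈ T})
      (n := max (cnt S n) (min (cnt T n) (g n))) (fun i hi => h hi) (le_max_left _ _)
      (max_le (cnt_mono h n) (min_le_left _ _))
    exact ⟨u, h1, h2, h3⟩
  choose u h1 h2 h3 using h1
  refine ⟨{x | x.2 ∈ u x.1}, ?_, ?_, ?_⟩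
  · rintro ⟨n, i⟩ hx
    exact h1 n hx
  · rintro ⟨n, i⟩ hx
    exact h2 n hx
  · intro n
    rw [← h3 n]
    rfl

theorem pow_gap (k c : ℕ) : ∀ᶠ n in atTop, 2 ^ (n - (k + 1)) + c ≤ 2 ^ (n - k) := by
  filter_upwards [eventually_ge_atTop (k + 1 + c)] with n hn
  have e : n - k = (n - (k + 1)) + 1 := by omega
  rw [e, pow_succ]
  have h1 : c < 2 ^ (n - (k + 1)) := by
    have h2 : c ≤ n - (k + 1) := by omega
    exact lt_of_le_of_lt h2 Nat.lt_two_pow_self
  omega

/-- a set that is not low contains (above a given low set) sets of arbitrarily large rank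
that are not low -/
theorem high_dense {T₀ T₁ : Set F} (h : T₀ ⊆ T₁) (h0 : Low T₀) (h1 : ¬ Low T₁) (k : ℕ) :
    ∃ T, T₀ ⊆ T ∧ T ⊆ T₁ ∧ ¬ Low T ∧ k < hr T := by
  obtain ⟨T, hT0, hT1, hT⟩ := exists_cnt h (fun n => 2 ^ (n - (k + 1)))
  have hnl : ¬ Low T := by
    intro hL
    obtain ⟨c, hc⟩ := hr_spec h1
    set j := hr T₁
    have h2 := hL (max j (k + 1)) (c + 1)
    obtain ⟨n, h3, h4⟩ := (hc.and_eventually h2).exists
    rw [hT n] at h4
    have h5 : 2 ^ (n - max j (k + 1)) ≤ 2 ^ (n - j) :=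
      Nat.pow_le_pow_right (by norm_num) (by omega)
    have h6 : 2 ^ (n - max j (k + 1)) ≤ 2 ^ (n - (k + 1)) :=
      Nat.pow_le_pow_right (by norm_num) (by omega)
    have h7 : min (cnt T₁ n) (2 ^ (n - (k + 1))) ≤
        max (cnt T₀ n) (min (cnt T₁ n) (2 ^ (n - (k + 1)))) := le_max_right _ _
    rcases min_choice (cnt T₁ n) (2 ^ (n - (k + 1))) with h8 | h8 <;> omega
  refine ⟨T, hT0, hT1, hnl, ?_⟩
  · by_contra h2
    push Not at h2
    obtain ⟨c, hc⟩ := hr_spec hnl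
    have h3 := h0 (k + 1) 0
    have h4 := pow_gap k c
    obtain ⟨n, h5, h6, h7⟩ := (hc.and_eventually (h3.and h4)).exists
    rw [hT n] at h5
    have h8 : 2 ^ (n - k) ≤ 2 ^ (n - hr T) := Nat.pow_le_pow_right (by norm_num) (by omega)
    rcases max_choice (cnt T₀ n) (min (cnt T₁ n) (2 ^ (n - (k + 1)))) with h9 | h9
    · omega
    · have h10 := min_le_right (cnt T₁ n) (2 ^ (n - (k + 1)))
      omega

/-- countably many small functions are simultaneously dominated by a small function, with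
unbounded difference -/
theorem small_dom {G : Set (ℕ → ℕ)} (hG : G.Countable) (hS : ∀ g ∈ G, Sm g) :
    ∃ f, Sm f ∧ ∀ g ∈ G, ∀ c, ∀ᶠ n in atTop, g n + c ≤ f n := by
  rcases G.eq_empty_or_nonempty with he | hne
  · refine ⟨0, ?_, by simp [he]⟩
    intro k c
    filter_upwards [eventually_ge_atTop (k + c)] with n hn
    have : c ≤ n - k := by omega
    have := lt_of_le_of_lt this (Nat.lt_two_pow_self (n := n - k))
    simp only [Pi.zero_apply]
    omega
  · obtain ⟨e, he⟩ := hG.exists_eq_range hne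
    have he' : ∀ i, Sm (e i) := fun i => hS _ (he ▸ mem_range_self i)
    -- thresholds
    have h1 : ∀ m, ∃ M, ∀ n ≥ M, ∀ i ≤ m, e i n + m ≤ 2 ^ (n - m) := by
      intro m
      have h2 : ∀ᶠ n in atTop, ∀ i ≤ m, e i n + m ≤ 2 ^ (n - m) := by
        have := (Set.finite_Iic m).eventually_all (l := atTop)
          (p := fun i n => e i n + m ≤ 2 ^ (n - m))
        exact this.2 (fun i _ => he' i m m)
      exact eventually_atTop.1 h2
    choose M hM using h1
    -- the slowly growing function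
    let h : ℕ → ℕ := fun n => Nat.findGreatest (fun m => ∀ j ≤ m, M j ≤ n) n
    have hprop : ∀ n, (∀ j ≤ h n, M j ≤ n) ∨ h n = 0 := by
      intro n
      by_cases h0 : h n = 0
      · exact Or.inr h0
      · exact Or.inl (Nat.findGreatest_of_ne_zero (P := fun m => ∀ j ≤ m, M j ≤ n) rfl h0)
    have htend : ∀ m, ∀ᶠ n in atTop, m ≤ h n := by
      intro m
      have h3 : ∀ᶠ n in atTop, ∀ j ≤ m, M j ≤ n := by
        have := (Set.finite_Iic m).eventually_all (l := atTop) (p := fun j n => M j ≤ n)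
        exact this.2 (fun j _ => eventually_ge_atTop (M j))
      filter_upwards [h3, eventually_ge_atTop m] with n h4 h5
      exact Nat.le_findGreatest h5 h4
    let f : ℕ → ℕ := fun n => ((Finset.range (h n + 1)).sup (fun i => e i n)) + h n
    have hf1 : ∀ᶠ n in atTop, f n ≤ 2 ^ (n - h n) := by
      filter_upwards [htend 1] with n h3
      rcases hprop n with h4 | h4
      · have h5 := h4 (h n) le_rfl
        have h6 := hM (h n) n h5
        have h7 : ∃ i ≤ h n, (Finset.range (h n + 1)).sup (fun i => e i n) = e i n := by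
          obtain ⟨i, hi, hi'⟩ := Finset.exists_mem_eq_sup (Finset.range (h n + 1))
            ⟨0, by simp⟩ (fun i => e i n)
          exact ⟨i, by have := Finset.mem_range.1 hi; omega, hi'⟩
        obtain ⟨i, hi, hi'⟩ := h7
        change (Finset.range (h n + 1)).sup (fun i => e i n) + h n ≤ _
        rw [hi']
        exact h6 i hi
      · omega
    refine ⟨f, ?_, ?_⟩
    · intro k c
      filter_upwards [hf1, htend (k + 1), pow_gap k c] with n h3 h4 h5
      have h6 : 2 ^ (n - h n) ≤ 2 ^ (n - (k + 1)) :=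
        Nat.pow_le_pow_right (by norm_num) (by omega)
      omega
    · intro g hg c
      rw [he] at hg
      obtain ⟨i, rfl⟩ := hg
      filter_upwards [htend (max i c)] with n h3
      have h4 : e i n ≤ (Finset.range (h n + 1)).sup (fun i => e i n) :=
        Finset.le_sup (f := fun i => e i n) (Finset.mem_range.2 (by omega))
      change e i n + c ≤ (Finset.range (h n + 1)).sup (fun i => e i n) + h n
      omega

theorem low_dense (r : (ℕ → ℕ) → (ℕ → ℕ) → Prop) [hwo : IsWellOrder (ℕ → ℕ) r]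
    (hc : ∀ g, {f | r f g}.Countable) {T₀ T₁ : Set F} (h : T₀ ⊆ T₁) (h0 : Low T₀)
    (h1 : ¬ Low T₁) (g : ℕ → ℕ) :
    ∃ T, T₀ ⊆ T ∧ T ⊆ T₁ ∧ Low T ∧ r g (lr r T) := by
  have hGc : ({f | (r f g ∨ f = g) ∧ Sm f} : Set (ℕ → ℕ)).Countable := by
    have : ({f | (r f g ∨ f = g) ∧ Sm f} : Set (ℕ → ℕ)) ⊆ {f | r f g} ∪ {g} := by
      rintro f ⟨h2 | h2, _⟩
      · exact Or.inl h2
      · exact Or.inr h2
    exact ((hc g).union (Set.countable_singleton g)).mono this
  obtain ⟨f, hf, hfd⟩ := small_dom hGc (fun f hf => hf.2)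
  obtain ⟨T, hT0, hT1, hT⟩ := exists_cnt h f
  have hlow : Low T := by
    intro k c
    filter_upwards [h0 k c, hf k c] with n h3 h4
    rw [hT n]
    have := min_le_right (cnt T₁ n) (f n)
    rcases max_choice (cnt T₀ n) (min (cnt T₁ n) (f n)) with h5 | h5 <;> omega
  refine ⟨T, hT0, hT1, hlow, ?_⟩
  by_contra hcon
  have h2 : lr r T ∈ ({f | (r f g ∨ f = g) ∧ Sm f} : Set (ℕ → ℕ)) := by
    refine ⟨?_, (lr_mem r hlow).1⟩
    rcases trichotomous_of r (lr r T) g with h3 | h3 | h3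
    · exact Or.inl h3
    · exact Or.inr h3
    · exact absurd h3 hcon
  obtain ⟨_, c, h3⟩ := lr_mem r hlow
  obtain ⟨d, hd⟩ := hr_spec h1
  set j := hr T₁
  have h4 := hfd _ h2 (c + d + 1)
  have h5 := hf j (c + d + 1)
  obtain ⟨n, h6, h7, h8, h9⟩ := (hd.and_eventually (h3.and (h4.and h5))).exists
  rw [hT n] at h7
  have h10 : min (cnt T₁ n) (f n) ≤ max (cnt T₀ n) (min (cnt T₁ n) (f n)) := le_max_right _ _
  rcases min_choice (cnt T₁ n) (f n) with h11 | h11 <;> omega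

end Vale.Agent.H6.InfMat
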