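import Vale.Agent.H6.InfMat.Rec

/-!
Uniform matroids avoiding two families of forbidden sets.
-/

open Set

namespace Vale.Agent.H6.InfMat

variable {α : Type*} {D N : Set (Set α)}

theorem exists_unif {r : Set α × Set α → Set α × Set α → Prop} (hr : IsWellOrder _ r)
    (hc : ∀ p, {q | r q p}.Countable) (hF : Forb D N) :
    ∃ U : Matroid α, U.E = univ ∧ (∀ B, U.IsBase B → B ∉ D ∧ B ∉ N) ∧
      (∀ B x y, U.IsBase B → x ∈ B → y ∉ B → U.IsBase (insert y (B \ {x}))) := by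
  have wf : WellFounded r := hr.wf
  have ht : ∀ p q, r p q ∨ p = q ∨ r q p := fun p q => by
    rcases trichotomous_of r p q with h | h | h
    · exact Or.inl h
    · exact Or.inr (Or.inl h)
    · exact Or.inr (Or.inr h)
  refine ⟨
    { E := univ
      IsBase := IsB D N wf
      Indep := fun I => ∃ B, IsB D N wf B ∧ I ⊆ B
      indep_iff' := fun I => Iff.rfl
      exists_isBase := by
        rcases dichotomy (wf := wf) hF hc (∅ : Set α) with ⟨B, h, _⟩ | ⟨B, h, _⟩ <;>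
        exact ⟨B, h⟩
      isBase_exchange := ?_
      maximality := ?_
      subset_ground := fun B _ => subset_univ B }, rfl, fun B hB => IsB.notMem hF hB,
      fun B x y hB hx hy => IsB.exch hB hx hy⟩
  · intro X Y hX hY a ha
    have h1 : ∃ b, b ∈ Y \ X := by
      by_contra h
      push Not at h
      have h2 : Y ⊆ X := fun y hy => by
        by_contra h3
        exact h y ⟨hy, h3⟩
      exact ha.2 ((hY.anti ht hX h2) ▸ ha.1)
    obtain ⟨b, hb⟩ := h1
    exact ⟨b, hb, IsB.exch hX ha.1 hb.2⟩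
  · intro X _ I hI hIX
    rcases dichotomy (wf := wf) hF hc X with ⟨B, hB, hXB⟩ | hX
    · exact ⟨X, hIX, ⟨⟨B, hB, hXB⟩, subset_rfl⟩, fun K hK _ => hK.2⟩
    · by_cases hinf : (X \ I).Infinite
      · obtain ⟨B, h1, h2, h3⟩ := between ht hF hc hIX hinf hI hX
        refine ⟨B, h1, ⟨⟨B, h3, subset_rfl⟩, h2⟩, ?_⟩
        rintro K ⟨⟨B', hB', hKB'⟩, _⟩ hBK
        have h4 := h3.anti ht hB' (Subset.trans hBK hKB')
        rw [h4]
        exact hKB'
      · rw [not_infinite] at hinf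
        have hfin : {K : Set α | I ⊆ K ∧ K ⊆ X ∧ ∃ B, IsB D N wf B ∧ K ⊆ B}.Finite := by
          have h1 : {K : Set α | I ⊆ K ∧ K ⊆ X ∧ ∃ B, IsB D N wf B ∧ K ⊆ B} ⊆
              (fun A => I ∪ A) '' (𝒫 (X \ I)) := by
            rintro K ⟨h1, h2, _⟩
            refine ⟨K \ I, fun x hx => ⟨h2 hx.1, hx.2⟩, ?_⟩
            exact union_sdiff_cancel h1
          exact (hinf.finite_subsets.image _).subset h1
        obtain ⟨J, hIJ, hJ⟩ := hfin.exists_le_maximal (a := I) ⟨subset_rfl, hIX, hI⟩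
        refine ⟨J, hIJ, ⟨hJ.prop.2.2, hJ.prop.2.1⟩, ?_⟩
        rintro K ⟨h1, h2⟩ hJK
        exact hJ.le_of_ge ⟨Subset.trans hIJ hJK, h2, h1⟩ hJK

end Vale.Agent.H6.InfMat
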