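import Vale.Agent.H6.InfMat.Gap
import Vale.Agent.H6.InfMat.Unif

/-!
The forbidden families on `F ⊕ F` and the uniform matroid avoiding them.
-/

open Set Filter

namespace Vale.Agent.H6.InfMat

/-- the index of the block of an element -/
def blk : F ⊕ F → ℕ := Sum.elim (fun x => x.1) (fun x => x.1)

theorem finite_blk_le (n : ℕ) : {x : F ⊕ F | blk x ≤ n}.Finite := by
  have h1 : {x : F | x.1 ≤ n}.Finite := by
    have h2 : {x : F | x.1 ≤ n} ⊆ ⋃ m ∈ Iic n, (fun i : Fin (2 ^ m) => (⟨m, i⟩ : F)) '' univ := by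
      rintro ⟨m, i⟩ hm
      exact mem_biUnion (show m ∈ Iic n from hm) ⟨i, mem_univ _, rfl⟩
    exact ((finite_Iic n).biUnion (fun m _ => (toFinite _))).subset h2
  have h3 : {x : F ⊕ F | blk x ≤ n} ⊆ Sum.inl '' {x : F | x.1 ≤ n} ∪ Sum.inr '' {x : F | x.1 ≤ n} := by
    rintro (x | x) hx
    · exact Or.inl ⟨x, hx, rfl⟩
    · exact Or.inr ⟨x, hx, rfl⟩
  exact ((h1.image _).union (h1.image _)).subset h3

theorem exists_seq (z : ℕ → Set (F ⊕ F)) (hz : ∀ m, (z m).Infinite) :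
    ∃ x : ℕ → F ⊕ F, (∀ m, x m ∈ z m) ∧ StrictMono (fun m => blk (x m)) := by
  have h1 : ∀ m n, ∃ x, x ∈ z m ∧ n < blk x := by
    intro m n
    by_contra h
    push Not at h
    exact hz m ((finite_blk_le n).subset h)
  choose f hf1 hf2 using h1
  let x : ℕ → F ⊕ F := fun m => Nat.rec (f 0 0) (fun m y => f (m + 1) (blk y)) m
  refine ⟨x, ?_, strictMono_nat_of_lt_succ ?_⟩
  · intro m
    cases m with
    | zero => exact hf1 0 0
    | succ m => exact hf1 (m + 1) (blk (x m))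
  · intro m
    exact hf2 (m + 1) (blk (x m))

theorem exists_split (Z : Set (Set (F ⊕ F))) (hZc : Z.Countable) (hZ : ∀ z ∈ Z, z.Infinite) :
    ∃ D₁ D₂ : Set (F ⊕ F), (∀ x ∈ D₁, x ∉ D₂) ∧ D₁ ∪ D₂ ⊆ ⋃₀ Z ∧
      (∀ x ∈ D₁ ∪ D₂, ∀ y ∈ D₁ ∪ D₂, blk x = blk y → x = y) ∧
      ∀ z ∈ Z, (z ∩ D₁).Infinite ∧ (z ∩ D₂).Infinite := by
  rcases Z.eq_empty_or_nonempty with he | hne
  · exact ⟨∅, ∅, by simp, by simp, by simp, by simp [he]⟩
  obtain ⟨e, he⟩ := hZc.exists_eq_range hne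
  have heZ : ∀ i, e i ∈ Z := fun i => he ▸ mem_range_self i
  obtain ⟨x, hx, hmono⟩ := exists_seq (fun m => e (Nat.unpair (m / 2)).1)
    (fun m => hZ _ (heZ _))
  have hinj : Function.Injective x := fun a b hab => hmono.injective (by simp [hab])
  have hinf : ∀ i (s : ℕ), s < 2 →
      (e i ∩ {y | ∃ j, y = x (2 * j + s)}).Infinite := by
    intro i s hs
    have h1 : (range (fun k => x (2 * Nat.pair i k + s))).Infinite := by
      refine infinite_range_of_injective ?_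
      intro a b hab
      have h2 := hinj hab
      have h3 : Nat.pair i a = Nat.pair i b := by omega
      exact (Nat.pair_eq_pair.1 h3).2
    refine h1.mono ?_
    rintro _ ⟨k, rfl⟩
    refine ⟨?_, Nat.pair i k, rfl⟩
    have h4 := hx (2 * Nat.pair i k + s)
    have h5 : (2 * Nat.pair i k + s) / 2 = Nat.pair i k := by omega
    simp only [h5, Nat.unpair_pair] at h4
    exact h4
  refine ⟨{y | ∃ j, y = x (2 * j + 0)}, {y | ∃ j, y = x (2 * j + 1)}, ?_, ?_, ?_, ?_⟩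
  · rintro _ ⟨j, rfl⟩ ⟨k, hk⟩
    have := hinj hk
    omega
  · rintro y (⟨j, rfl⟩ | ⟨j, rfl⟩)
    · exact ⟨_, heZ _, hx (2 * j + 0)⟩
    · exact ⟨_, heZ _, hx (2 * j + 1)⟩
  · have h6 : ∀ y ∈ ({y | ∃ j, y = x (2 * j + 0)} ∪ {y | ∃ j, y = x (2 * j + 1)} : Set (F ⊕ F)),
        ∃ m, y = x m := by
      rintro y (⟨j, rfl⟩ | ⟨j, rfl⟩)
      · exact ⟨_, rfl⟩
      · exact ⟨_, rfl⟩
    intro y hy z hz hyz
    obtain ⟨a, rfl⟩ := h6 y hy
    obtain ⟨b, rfl⟩ := h6 z hz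
    rw [hmono.injective hyz]
  · intro z hz
    rw [he] at hz
    obtain ⟨i, rfl⟩ := hz
    exact ⟨hinf i 0 (by norm_num), hinf i 1 (by norm_num)⟩

/-- the part of `S` on the left copy -/
def Tp (S : Set (F ⊕ F)) : Set F := {f | Sum.inl f ∈ S}

/-- the complement of the part of `S` on the right copy -/
def Rp (S : Set (F ⊕ F)) : Set F := {f | Sum.inr f ∉ S}

theorem cnt_le_add (A B : Set F) (n : ℕ) : cnt A n ≤ cnt B n + cnt (A \ B) n := by
  unfold cnt
  refine le_trans (ncard_le_ncard ?_ (toFinite _)) (ncard_union_le _ _)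
  intro i hi
  by_cases h : (⟨n, i⟩ : F) ∈ B
  · exact Or.inl h
  · exact Or.inr ⟨hi, h⟩

theorem Le.of_bdd {A B : Set F} {c : ℕ} (h : ∀ᶠ n in atTop, cnt (A \ B) n ≤ c) : Le A B := by
  refine ⟨c, ?_⟩
  filter_upwards [h] with n hn
  have := cnt_le_add A B n
  omega

theorem cnt_eq_zero {A : Set F} (h : A.Finite) : ∀ᶠ n in atTop, cnt A n ≤ 0 := by
  obtain ⟨m, hm⟩ := (h.image (fun x : F => x.1)).bddAbove
  filter_upwards [eventually_gt_atTop m] with n hn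
  have : {i : Fin (2 ^ n) | (⟨n, i⟩ : F) ∈ A} = ∅ := by
    ext i
    simp only [mem_ofPred_eq, mem_empty_iff_false, iff_false]
    intro hi
    have := hm ⟨⟨n, i⟩, hi, rfl⟩
    simp only at this
    omega
  unfold cnt
  rw [this, ncard_empty]

theorem Le.of_finite {A B : Set F} (h : (A \ B).Finite) : Le A B :=
  Le.of_bdd (cnt_eq_zero h)

theorem cnt_le_one {A : Set F} (h : ∀ x ∈ A, ∀ y ∈ A, x.1 = y.1 → x = y) (n : ℕ) :
    cnt A n ≤ 1 := by
  unfold cnt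
  rw [ncard_le_one (toFinite _)]
  intro a ha b hb
  have := h _ ha _ hb rfl
  simpa using this

theorem not_low_univ : ¬ Low univ := by
  intro h
  obtain ⟨n, hn⟩ := (h 0 1).exists
  rw [cnt_univ] at hn
  simp at hn

theorem low_empty : Low ∅ := by
  intro k c
  filter_upwards [eventually_ge_atTop (k + c)] with n hn
  rw [cnt_empty]
  have h1 : c ≤ n - k := by omega
  have := lt_of_le_of_lt h1 (Nat.lt_two_pow_self (n := n - k))
  omega

section
variable (r : (ℕ → ℕ) → (ℕ → ℕ) → Prop) [hwo : IsWellOrder (ℕ → ℕ) r]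

/-- the sets to be dependent -/
def Dset : Set (Set (F ⊕ F)) := {S | ¬ Low (Tp S) ∧ (Low (Rp S) ∨ hr (Tp S) ≤ hr (Rp S))}

/-- the sets to be non-spanning -/
def Nset : Set (Set (F ⊕ F)) :=
  {S | Low (Tp S) ∧ (¬ Low (Rp S) ∨ ¬ r (lr r (Rp S)) (lr r (Tp S)))}

theorem Dset_mono {S S' : Set (F ⊕ F)} (h1 : Le (Tp S) (Tp S')) (h2 : Le (Rp S') (Rp S))
    (h : S ∈ Dset) : S' ∈ Dset := by
  obtain ⟨h3, h4⟩ := h
  have h5 : ¬ Low (Tp S') := fun h => h3 (h.mono h1)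
  refine ⟨h5, ?_⟩
  by_cases h6 : Low (Rp S')
  · exact Or.inl h6
  · right
    rcases h4 with h4 | h4
    · exact absurd (h4.mono h2) h6
    · exact (hr_anti h1 h3).trans (h4.trans (hr_anti h2 h6))

omit hwo in
theorem not_r_trans [hwo : IsWellOrder (ℕ → ℕ) r] {a b c : ℕ → ℕ} (h1 : ¬ r a b)
    (h2 : ¬ r b c) : ¬ r a c := by
  intro h
  rcases trichotomous_of r b a with h3 | h3 | h3
  · exact h2 (trans_of r h3 h)
  · exact h2 (h3 ▸ h)
  · exact h1 h3

theorem Nset_mono {S S' : Set (F ⊕ F)} (h1 : Le (Tp S') (Tp S)) (h2 : Le (Rp S) (Rp S'))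
    (h : S ∈ Nset r) : S' ∈ Nset r := by
  obtain ⟨h3, h4⟩ := h
  refine ⟨h3.mono h1, ?_⟩
  by_cases h6 : Low (Rp S')
  · right
    rcases h4 with h4 | h4
    · exact absurd (h6.mono h2) h4
    · exact not_r_trans r (not_r_trans r (lr_mono r h2 h6) h4) (lr_mono r h1 h3)
  · exact Or.inl h6

theorem exists_mid (hc : ∀ g, {f | r f g}.Countable) {I X : Set (F ⊕ F)} (hIX : I ⊆ X)
    (hI : I ∉ Dset) (hX : X ∉ Nset r) :
    ∃ S, I ⊆ S ∧ S ⊆ X ∧ S ∉ Dset ∧ S ∉ Nset r := by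
  by_cases h1 : I ∉ Nset r
  · exact ⟨I, subset_rfl, hIX, hI, h1⟩
  by_cases h2 : X ∉ Dset
  · exact ⟨X, hIX, subset_rfl, h2, hX⟩
  rw [not_not] at h1 h2
  have hT : Tp I ⊆ Tp X := fun f hf => hIX hf
  have hgen : ∀ T, Tp I ⊆ T → T ⊆ Tp X →
      ∃ S, I ⊆ S ∧ S ⊆ X ∧ Tp S = T ∧ Rp S = Rp I := by
    intro T hT1 hT2
    refine ⟨{x | Sum.elim (fun f => f ∈ T) (fun f => Sum.inr f ∈ I) x}, ?_, ?_, ?_, ?_⟩
    · rintro (f | f) hf
      · exact hT1 hf
      · exact hf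
    · rintro (f | f) hf
      · exact hT2 hf
      · exact hIX hf
    · ext f; rfl
    · ext f; rfl
  by_cases h3 : Low (Rp I)
  · obtain ⟨T, hT1, hT2, hT3, hT4⟩ := low_dense r hc hT h1.1 h2.1 (lr r (Rp I))
    obtain ⟨S, hS1, hS2, hS3, hS4⟩ := hgen T hT1 hT2
    refine ⟨S, hS1, hS2, ?_, ?_⟩
    · rintro ⟨h4, _⟩
      rw [hS3] at h4
      exact h4 hT3
    · rintro ⟨_, h4 | h4⟩
      · rw [hS4] at h4
        exact h4 h3
      · rw [hS3, hS4] at h4
        exact h4 hT4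
  · obtain ⟨T, hT1, hT2, hT3, hT4⟩ := high_dense hT h1.1 h2.1 (hr (Rp I))
    obtain ⟨S, hS1, hS2, hS3, hS4⟩ := hgen T hT1 hT2
    refine ⟨S, hS1, hS2, ?_, ?_⟩
    · rintro ⟨_, h4 | h4⟩
      · rw [hS4] at h4
        exact h3 h4
      · rw [hS3, hS4] at h4
        omega
    · rintro ⟨h4, _⟩
      rw [hS3] at h4
      exact hT3 h4

theorem forb (hc : ∀ g, {f | r f g}.Countable) : Forb Dset (Nset r) where
  up := by
    intro S S' h h1
    refine Dset_mono (Le.of_finite ?_) (Le.of_finite ?_) h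
    · refine (h1.preimage (f := Sum.inl) Sum.inl_injective.injOn).subset ?_
      exact fun f hf => hf
    · refine (h1.preimage (f := Sum.inr) Sum.inr_injective.injOn).subset ?_
      rintro f ⟨hf1, hf2⟩
      exact ⟨not_not.1 hf2, hf1⟩
  down := by
    intro S S' h h1
    refine Nset_mono r (Le.of_finite ?_) (Le.of_finite ?_) h
    · refine (h1.preimage (f := Sum.inl) Sum.inl_injective.injOn).subset ?_
      exact fun f hf => hf
    · refine (h1.preimage (f := Sum.inr) Sum.inr_injective.injOn).subset ?_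
      rintro f ⟨hf1, hf2⟩
      exact ⟨not_not.1 hf2, hf1⟩
  disj := fun S h h' => h.1 h'.1
  empty := by
    refine ⟨?_, Or.inl ?_⟩
    · have : Tp ∅ = ∅ := by ext; simp [Tp]
      rw [this]
      exact low_empty
    · have : Rp ∅ = univ := by ext; simp [Rp]
      rw [this]
      exact not_low_univ
  univ := by
    refine ⟨?_, Or.inl ?_⟩
    · have : Tp univ = univ := by ext; simp [Tp]
      rw [this]
      exact not_low_univ
    · have : Rp univ = ∅ := by ext; simp [Rp]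
      rw [this]
      exact low_empty
  interp := by
    intro I X hIX _ hI hX Z hZc hZ
    obtain ⟨S, hS1, hS2, hS3, hS4⟩ := exists_mid r hc hIX hI hX
    obtain ⟨D₁, D₂, h1, h2, h3, h4⟩ := exists_split Z hZc (fun z hz => (hZ z hz).1)
    have h5 : D₁ ∪ D₂ ⊆ X \ I := by
      intro x hx
      obtain ⟨z, hz, hxz⟩ := h2 hx
      exact (hZ z hz).2 hxz
    have hsp : ∀ (A : Set F) (ι : F → F ⊕ F), (∀ x, blk (ι x) = x.1) → Function.Injective ι →
        (∀ x ∈ A, ι x ∈ D₁ ∪ D₂) → ∀ n, cnt A n ≤ 1 := by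
      intro A ι hι hinj hA n
      refine cnt_le_one ?_ n
      intro x hx y hy hxy
      exact hinj (h3 _ (hA x hx) _ (hA y hy) (by rw [hι, hι, hxy]))
    set S' : Set (F ⊕ F) := (S ∪ D₁) \ D₂ with hS'
    have hd : ∀ x, (x ∈ S' ∧ x ∉ S) ∨ (x ∈ S ∧ x ∉ S') → x ∈ D₁ ∪ D₂ := by
      rintro x (⟨h6, h7⟩ | ⟨h6, h7⟩)
      · rcases h6.1 with h8 | h8
        · exact absurd h8 h7
        · exact Or.inl h8
      · by_contra h8
        exact h7 ⟨Or.inl h6, fun h => h8 (Or.inr h)⟩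
    have hT1 : Le (Tp S') (Tp S) := Le.of_bdd (c := 1) (Eventually.of_forall
      (hsp _ Sum.inl (fun _ => rfl) Sum.inl_injective (fun x hx => hd _ (Or.inl hx))))
    have hT2 : Le (Tp S) (Tp S') := Le.of_bdd (c := 1) (Eventually.of_forall
      (hsp _ Sum.inl (fun _ => rfl) Sum.inl_injective (fun x hx => hd _ (Or.inr hx))))
    have hR1 : Le (Rp S') (Rp S) := Le.of_bdd (c := 1) (Eventually.of_forall
      (hsp _ Sum.inr (fun _ => rfl) Sum.inr_injective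
        (fun x hx => hd _ (Or.inr ⟨not_not.1 hx.2, hx.1⟩))))
    have hR2 : Le (Rp S) (Rp S') := Le.of_bdd (c := 1) (Eventually.of_forall
      (hsp _ Sum.inr (fun _ => rfl) Sum.inr_injective
        (fun x hx => hd _ (Or.inl ⟨not_not.1 hx.2, hx.1⟩))))
    refine ⟨S', ?_, ?_, ?_, ?_, ?_⟩
    · intro x hx
      exact ⟨Or.inl (hS1 hx), fun h => (h5 (Or.inr h)).2 hx⟩
    · rintro x ⟨h6 | h6, _⟩
      · exact hS2 h6
      · exact (h5 (Or.inl h6)).1
    · intro h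
      exact hS3 (Dset_mono hT1 hR2 h)
    · intro h
      exact hS4 (Nset_mono r hT2 hR1 h)
    · intro z hz
      obtain ⟨h6, h7⟩ := h4 z hz
      refine ⟨h6.mono ?_, h7.mono ?_⟩
      · rintro x ⟨h8, h9⟩
        exact ⟨h8, Or.inr h9, h1 x h9⟩
      · rintro x ⟨h8, h9⟩
        exact ⟨h8, fun h => h.2 h9⟩

end

end Vale.Agent.H6.InfMat
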