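import Vale.Agent.H6.InfMat.Fe

/-!
Transfinite recursion producing a family of pairwise incomparable sets.
-/

open Set

namespace Vale.Agent.H6.InfMat

variable {α : Type*}

/-- `S` is an admissible new base for the task `p`, given the earlier choices. -/
def Good (D N : Set (Set α)) (r : Set α × Set α → Set α × Set α → Prop) (p : Set α × Set α)
    (prev : ∀ q, r q p → Option (Set α)) (S : Set α) : Prop :=
  p.1 ⊆ S ∧ S ⊆ p.2 ∧ S ∉ D ∧ S ∉ N ∧ ∀ q (h : r q p) B, prev q h = some B → Inc B S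

open Classical in
/-- the recursive choice of bases -/
noncomputable def bs (D N : Set (Set α)) {r : Set α × Set α → Set α × Set α → Prop}
    (wf : WellFounded r) : Set α × Set α → Option (Set α) :=
  wf.fix (fun p prev => if h : ∃ S, Good D N r p prev S then some h.choose else none)

variable {D N : Set (Set α)} {r : Set α × Set α → Set α × Set α → Prop} {wf : WellFounded r}

open Classical in
theorem bs_eq (p : Set α × Set α) : bs D N wf p =
    if h : ∃ S, Good D N r p (fun q _ => bs D N wf q) S then some h.choose else none := by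
  unfold bs
  rw [WellFounded.fix_eq]

theorem bs_some {p : Set α × Set α} {S : Set α} (h : bs D N wf p = some S) :
    Good D N r p (fun q _ => bs D N wf q) S := by
  classical
  rw [bs_eq] at h
  split_ifs at h with h1
  · rw [← Option.some.inj h]
    exact h1.choose_spec

theorem bs_exists {p : Set α × Set α} (h : ∃ S, Good D N r p (fun q _ => bs D N wf q) S) :
    ∃ S, bs D N wf p = some S := by
  classical
  rw [bs_eq, dif_pos h]
  exact ⟨_, rfl⟩

theorem bs_inc (ht : ∀ p q, r p q ∨ p = q ∨ r q p) {p q : Set α × Set α} (hpq : p ≠ q)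
    {A B : Set α} (hA : bs D N wf p = some A) (hB : bs D N wf q = some B) : Inc A B := by
  rcases ht p q with h | h | h
  · exact (bs_some hB).2.2.2.2 p h A hA
  · exact absurd h hpq
  · exact ((bs_some hA).2.2.2.2 q h B hB).symm

/-- the final bases -/
def IsB (D N : Set (Set α)) (wf : WellFounded r) (S : Set α) : Prop :=
  ∃ p B, bs D N wf p = some B ∧ Fe B S

theorem IsB.anti (ht : ∀ p q, r p q ∨ p = q ∨ r q p) {S S' : Set α}
    (h : IsB D N wf S) (h' : IsB D N wf S') (hs : S ⊆ S') : S = S' := by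
  obtain ⟨p, B, hp, hB⟩ := h
  obtain ⟨q, C, hq, hC⟩ := h'
  by_cases hpq : p = q
  · subst hpq
    rw [hp] at hq
    obtain rfl := Option.some.inj hq
    exact (hB.symm.trans hC).eq_of_subset hs
  · exfalso
    have h1 := (bs_inc ht hpq hp hq).1
    refine h1 ((hB.diff_finite.union hC.symm.diff_finite).subset ?_)
    rintro x ⟨h2, h3⟩
    by_cases h4 : x ∈ S
    · exact Or.inr ⟨hs h4, h3⟩
    · exact Or.inl ⟨h2, h4⟩

theorem IsB.exch {S : Set α} (h : IsB D N wf S) {x y : α} (hx : x ∈ S) (hy : y ∉ S) :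
    IsB D N wf (insert y (S \ {x})) := by
  obtain ⟨p, B, hp, hB⟩ := h
  exact ⟨p, B, hp, hB.exch hx hy⟩

/-- hypotheses on the two families of forbidden sets -/
structure Forb (D N : Set (Set α)) : Prop where
  up : ∀ S S', S ∈ D → (S \ S').Finite → S' ∈ D
  down : ∀ S S', S ∈ N → (S' \ S).Finite → S' ∈ N
  disj : ∀ S, S ∈ D → S ∉ N
  empty : ∅ ∈ N
  univ : univ ∈ D
  interp : ∀ I X : Set α, I ⊆ X → (X \ I).Infinite → I ∉ D → X ∉ N →
    ∀ Z : Set (Set α), Z.Countable → (∀ z ∈ Z, z.Infinite ∧ z ⊆ X \ I) →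
      ∃ S, I ⊆ S ∧ S ⊆ X ∧ S ∉ D ∧ S ∉ N ∧ ∀ z ∈ Z, (z ∩ S).Infinite ∧ (z \ S).Infinite

theorem IsB.notMem (hF : Forb D N) {S : Set α} (h : IsB D N wf S) : S ∉ D ∧ S ∉ N := by
  obtain ⟨p, B, hp, hB⟩ := h
  have hg := bs_some hp
  refine ⟨fun h1 => hg.2.2.1 (hF.up S B h1 hB.symm.diff_finite), fun h1 =>
    hg.2.2.2.1 (hF.down S B h1 hB.diff_finite)⟩

theorem stage (hF : Forb D N) (hc : ∀ p, {q | r q p}.Countable) {I X : Set α} (hIX : I ⊆ X)
    (hinf : (X \ I).Infinite) (hI : I ∉ D) (hX : X ∉ N)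
    (hq : ∀ q, r q (I, X) → ∀ B, bs D N wf q = some B → (B \ I).Infinite ∧ (X \ B).Infinite) :
    ∃ S, I ⊆ S ∧ S ⊆ X ∧ IsB D N wf S := by
  classical
  set Z : Set (Set α) := {z | z.Infinite ∧ ∃ q, r q (I, X) ∧ ∃ B, bs D N wf q = some B ∧
    (z = B ∩ (X \ I) ∨ z = (X \ I) \ B)} with hZ
  have hZc : Z.Countable := by
    have h1 : Z ⊆ (⋃ q ∈ {q | r q (I, X)}, ({((bs D N wf q).getD ∅) ∩ (X \ I),
        (X \ I) \ ((bs D N wf q).getD ∅)} : Set (Set α))) := by
      rintro z ⟨_, q, h2, B, h3, h4⟩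
      refine mem_biUnion (show q ∈ {q | r q (I, X)} from h2) ?_
      rw [h3, Option.getD_some]
      exact h4
    refine Countable.mono h1 ?_
    refine (hc (I, X)).biUnion ?_
    intro q _
    exact (Set.countable_singleton _).insert _
  obtain ⟨S, h1, h2, h3, h4, h5⟩ := hF.interp I X hIX hinf hI hX Z hZc (by
    rintro z ⟨h6, q, h7, B, h8, h9 | h9⟩
    · exact ⟨h6, by rw [h9]; exact inter_subset_right⟩
    · exact ⟨h6, by rw [h9]; exact sdiff_subset⟩)
  have hgood : Good D N r (I, X) (fun q _ => bs D N wf q) S := by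
    refine ⟨h1, h2, h3, h4, ?_⟩
    intro q hr B hB
    obtain ⟨h6, h7⟩ := hq q hr B hB
    constructor
    · by_cases h8 : (B ∩ (X \ I)).Infinite
      · have := (h5 (B ∩ (X \ I)) ⟨h8, q, hr, B, hB, Or.inl rfl⟩).2
        exact this.mono (fun x hx => ⟨hx.1.1, hx.2⟩)
      · rw [not_infinite] at h8
        have h9 : (B \ X).Infinite := by
          intro h10
          refine h6 ((h8.union h10).subset ?_)
          rintro x ⟨h11, h12⟩
          by_cases h13 : x ∈ X
          · exact Or.inl ⟨h11, h13, h12⟩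
          · exact Or.inr ⟨h11, h13⟩
        exact h9.mono (fun x hx => ⟨hx.1, fun h => hx.2 (h2 h)⟩)
    · by_cases h8 : ((X \ I) \ B).Infinite
      · have := (h5 ((X \ I) \ B) ⟨h8, q, hr, B, hB, Or.inr rfl⟩).1
        exact this.mono (fun x hx => ⟨hx.2, hx.1.2⟩)
      · rw [not_infinite] at h8
        have h9 : (I \ B).Infinite := by
          intro h10
          refine h7 ((h8.union h10).subset ?_)
          rintro x ⟨h11, h12⟩
          by_cases h13 : x ∈ I
          · exact Or.inr ⟨h13, h12⟩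
          · exact Or.inl ⟨⟨h11, h13⟩, h12⟩
        exact h9.mono (fun x hx => ⟨h1 hx.1, hx.2⟩)
  obtain ⟨S', hS'⟩ := bs_exists (wf := wf) ⟨S, hgood⟩
  exact ⟨S', (bs_some hS').1, (bs_some hS').2.1, (I, X), S', hS', Fe.refl _⟩

theorem subset_of_infinite {Y : Set α} (h : Y.Infinite) (n : ℕ) :
    ∃ A : Set α, A.Finite ∧ A ⊆ Y ∧ A.ncard = n := by
  obtain ⟨A, hA, hAf, hAc⟩ := h.exists_subset_ncard_eq n
  exact ⟨A, hAf, hA, hAc⟩

theorem subset_of_le {Y : Set α} (hY : Y.Finite) {n : ℕ} (h : n ≤ Y.ncard) :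
    ∃ A : Set α, A.Finite ∧ A ⊆ Y ∧ A.ncard = n := by
  obtain ⟨A, hA, hAc⟩ := exists_subset_card_eq h
  exact ⟨A, hY.subset hA, hA, hAc⟩

/-- every set is contained in a base or contains a base -/
theorem dichotomy (hF : Forb D N) (hc : ∀ p, {q | r q p}.Countable) (S : Set α) :
    (∃ B, IsB D N wf B ∧ S ⊆ B) ∨ (∃ B, IsB D N wf B ∧ B ⊆ S) := by
  by_cases hD : S ∈ D
  · right
    have hne : ∀ q B, bs D N wf q = some B → B.Infinite ∧ (S \ B).Infinite := by
      intro q B hB
      have hg := bs_some hB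
      constructor
      · intro h
        refine hg.2.2.2.1 (hF.down ∅ B hF.empty (by simpa using h))
      · intro h
        exact hg.2.2.1 (hF.up S B hD h)
    have hSinf : S.Infinite := by
      intro h
      exact hF.disj S hD (hF.down ∅ S hF.empty (by simpa using h))
    obtain ⟨B, _, h2, h3⟩ := stage (wf := wf) hF hc (empty_subset S) (by simpa using hSinf)
      (fun h => hF.disj ∅ h hF.empty) (hF.disj S hD) (by
        intro q _ B hB
        have := hne q B hB
        exact ⟨by simpa using this.1, this.2⟩)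
    exact ⟨B, h3, h2⟩
  · by_cases hq : ∀ q, r q (S, univ) → ∀ B, bs D N wf q = some B → (B \ S).Infinite
    · left
      have hinf : ((univ : Set α) \ S).Infinite := by
        intro h
        exact hD (hF.up univ S hF.univ h)
      obtain ⟨B, h1, _, h3⟩ := stage (wf := wf) hF hc (subset_univ S) hinf hD
        (hF.disj univ hF.univ) (by
          intro q hr B hB
          refine ⟨hq q hr B hB, ?_⟩
          intro h
          exact (bs_some hB).2.2.1 (hF.up univ B hF.univ h))
      exact ⟨B, h3, h1⟩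
    · push Not at hq
      obtain ⟨q, _, B, hB, hfin⟩ := hq
      by_cases h2 : (S \ B).Infinite
      · right
        obtain ⟨S', h3, h4⟩ := Fe.below hfin h2
        exact ⟨S', ⟨q, B, hB, h4⟩, h3⟩
      · rw [not_infinite] at h2
        rcases le_total (B \ S).ncard (S \ B).ncard with h | h
        · right
          obtain ⟨S', _, h3, h4⟩ := Fe.down (I := ∅) (X := S) h2 hfin h
            (by
              obtain ⟨A, h5, h6, h7⟩ := subset_of_le h2 (Nat.sub_le (S \ B).ncard (B \ S).ncard)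
              exact ⟨A, h5, fun x hx => ⟨(h6 hx).1, by simp⟩, h7⟩) (empty_subset S)
          exact ⟨S', ⟨q, B, hB, h4⟩, h3⟩
        · left
          obtain ⟨S', h3, _, h4⟩ := Fe.up (I := S) (X := univ) hfin h2 h
            (by
              obtain ⟨A, h5, h6, h7⟩ := subset_of_le hfin (Nat.sub_le (B \ S).ncard (S \ B).ncard)
              exact ⟨A, h5, fun x hx => ⟨mem_univ x, (h6 hx).2⟩, h7⟩) (subset_univ S)
          exact ⟨S', ⟨q, B, hB, h4⟩, h3⟩

/-- between an independent and a spanning set with infinite difference there is a base -/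
theorem between (ht : ∀ p q, r p q ∨ p = q ∨ r q p) (hF : Forb D N)
    (hc : ∀ p, {q | r q p}.Countable) {I X : Set α} (hIX : I ⊆ X) (hinf : (X \ I).Infinite)
    (hI : ∃ B, IsB D N wf B ∧ I ⊆ B) (hX : ∃ B, IsB D N wf B ∧ B ⊆ X) :
    ∃ B, I ⊆ B ∧ B ⊆ X ∧ IsB D N wf B := by
  obtain ⟨B₁, hB₁, hIB₁⟩ := hI
  obtain ⟨B₂, hB₂, hXB₂⟩ := hX
  have hID : I ∉ D := fun h => (hB₁.notMem hF).1
    (hF.up I B₁ h (by rw [sdiff_eq_empty.2 hIB₁]; exact finite_empty))
  have hXN : X ∉ N := fun h => (hB₂.notMem hF).2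
    (hF.down X B₂ h (by rw [sdiff_eq_empty.2 hXB₂]; exact finite_empty))
  -- if some base is below `I` then `I` is a base
  have key1 : (∃ S, S ⊆ I ∧ IsB D N wf S) → ∃ B, I ⊆ B ∧ B ⊆ X ∧ IsB D N wf B := by
    rintro ⟨S, h1, h2⟩
    have h3 := h2.anti ht hB₁ (h1.trans hIB₁)
    have h4 : I = S := subset_antisymm (h3 ▸ hIB₁) h1
    exact ⟨I, subset_rfl, hIX, h4 ▸ h2⟩
  have key2 : (∃ S, X ⊆ S ∧ IsB D N wf S) → ∃ B, I ⊆ B ∧ B ⊆ X ∧ IsB D N wf B := by
    rintro ⟨S, h1, h2⟩
    have h3 := hB₂.anti ht h2 (hXB₂.trans h1)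
    have h4 : X = S := subset_antisymm h1 (h3 ▸ hXB₂)
    exact ⟨X, hIX, subset_rfl, h4 ▸ h2⟩
  by_cases hq : ∀ q, r q (I, X) → ∀ B, bs D N wf q = some B →
      (B \ I).Infinite ∧ (X \ B).Infinite
  · exact stage hF hc hIX hinf hID hXN hq
  · push Not at hq
    obtain ⟨q, _, B, hB, hfin⟩ := hq
    by_cases hBI : (B \ I).Infinite
    · -- `X \ B` is finite
      have hXB := hfin hBI
      by_cases h2 : (B \ X).Infinite
      · obtain ⟨S', h3, h4⟩ := Fe.above hXB h2
        exact key2 ⟨S', h3, q, B, hB, h4⟩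
      · rw [not_infinite] at h2
        rcases le_total (X \ B).ncard (B \ X).ncard with h | h
        · obtain ⟨S', h3, _, h4⟩ := Fe.up (I := X) (X := univ) h2 hXB h
            (by
              obtain ⟨A, h5, h6, h7⟩ := subset_of_le h2 (Nat.sub_le (B \ X).ncard (X \ B).ncard)
              exact ⟨A, h5, fun x hx => ⟨mem_univ x, (h6 hx).2⟩, h7⟩) (subset_univ X)
          exact key2 ⟨S', h3, q, B, hB, h4⟩
        · obtain ⟨S', h3, h3', h4⟩ := Fe.down (I := I) (X := X) hXB h2 h
            (subset_of_infinite hinf _) hIX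
          exact ⟨S', h3, h3', q, B, hB, h4⟩
    · rw [not_infinite] at hBI
      by_cases h2 : (I \ B).Infinite
      · obtain ⟨S', h3, h4⟩ := Fe.below hBI h2
        exact key1 ⟨S', h3, q, B, hB, h4⟩
      · rw [not_infinite] at h2
        rcases le_total (B \ I).ncard (I \ B).ncard with h | h
        · obtain ⟨S', _, h3, h4⟩ := Fe.down (I := ∅) (X := I) h2 hBI h
            (by
              obtain ⟨A, h5, h6, h7⟩ := subset_of_le h2 (Nat.sub_le (I \ B).ncard (B \ I).ncard)
              exact ⟨A, h5, fun x hx => ⟨(h6 hx).1, by simp⟩, h7⟩) (empty_subset I)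
          exact key1 ⟨S', h3, q, B, hB, h4⟩
        · obtain ⟨S', h3, h3', h4⟩ := Fe.up (I := I) (X := X) hBI h2 h
            (subset_of_infinite hinf _) hIX
          exact ⟨S', h3, h3', q, B, hB, h4⟩

end Vale.Agent.H6.InfMat
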