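import Mathlib

/-!
Well-orders with countable initial segments, from the continuum hypothesis.
-/

open Set Cardinal

namespace Vale.Agent.H6.InfMat

theorem exists_wo {β : Type} (h : #β ≤ ℵ₁) :
    ∃ r : β → β → Prop, IsWellOrder β r ∧ ∀ b, {a | r a b}.Countable := by
  obtain ⟨r, hr, e⟩ := Cardinal.exists_ord_eq β
  refine ⟨r, hr, fun b => ?_⟩
  have h1 : #{a // r a b} < #β := by
    have := Cardinal.card_typein_lt b e
    rwa [Ordinal.card_typein] at this
  exact (Cardinal.le_aleph0_iff_set_countable (s := {a | r a b})).1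
    (Cardinal.lt_aleph_one_iff.1 (lt_of_lt_of_le h1 h))

end Vale.Agent.H6.InfMat
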